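import Vale.Agent.P039.Cancel

namespace Vale.Agent.P039
open Finset

variable {E V : Type*} [Fintype E] [DecidableEq E] [DecidableEq V]
variable {nd nl : E → E} {tl : E → V} {e0 : E}

/-- Flip on a set. -/
def flp {I : Type*} [DecidableEq I] (χ : I → Bool) (F : Finset I) (i : I) : Bool :=
  if i ∈ F then !χ i else χ i

theorem flp_filter {I : Type*} [Fintype I] [DecidableEq I] (χ χ0 : I → Bool) :
    flp χ0 (univ.filter fun i => χ i ≠ χ0 i) = χ := by
  ext i
  simp only [flp, mem_filter, mem_univ, true_and]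
  cases χ i <;> cases χ0 i <;> simp

theorem filter_flp {I : Type*} [Fintype I] [DecidableEq I] (χ0 : I → Bool) (F : Finset I) :
    (univ.filter fun i => flp χ0 F i ≠ χ0 i) = F := by
  ext i
  rw [mem_filter]
  by_cases hi : i ∈ F <;> simp [flp, hi]

/-- Local weight. -/
noncomputable def wt (α : E → ℝ) (x : ℝ) (e : E) (b : Bool) : ℂ :=
  Complex.exp (Real.pi / 6 * sg b * Complex.I + x * α e)

theorem sg_not (b : Bool) : sg (!b) = -sg b := by cases b <;> simp [sg]

theorem exp_c (c : ℝ) (hc : c = 1 ∨ c = -1) :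
    Complex.exp (Real.pi / 2 * c * Complex.I) = c * Complex.I ∧
      Complex.exp (-(Real.pi * c * Complex.I)) = -1 := by
  have h1 : Complex.exp (Real.pi / 2 * Complex.I) = Complex.I := Complex.exp_pi_div_two_mul_I
  have h2 : Complex.exp (Real.pi * Complex.I) = -1 := Complex.exp_pi_mul_I
  rcases hc with rfl | rfl
  · simp only [Complex.ofReal_one, mul_one, one_mul, h1, Complex.exp_neg, h2]; norm_num
  · simp only [Complex.ofReal_neg, Complex.ofReal_one, mul_neg, mul_one, neg_mul, neg_neg, h2,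
      Complex.exp_neg, h1, one_mul]
    simp

theorem Sph.exists_acyc (h : Sph nd nl tl) (hb : NoBad nd nl e0) :
    ∃ (r : Inn nd e0 → E) (χ : Inn nd e0 → Bool), State nd tl e0 r ∧
      State nd tl e0 (fun i => nx nd (r i) (χ i)) ∧
      ∀ F ∈ Valid (fun i => tl (nx nd (r i) (χ i)))
        (fun i => tl (nx nd (nx nd (r i) (χ i)) (χ i))), F = ∅ := by
  classical
  by_contra hcon
  push Not at hcon
  obtain ⟨α, hα⟩ := h.exists_alpha e0
  set Ω : Finset ((Inn nd e0 → E) × (Inn nd e0 → Bool)) := univ.filter fun ω =>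
    State nd tl e0 ω.1 ∧ State nd tl e0 (fun i => nx nd (ω.1 i) (ω.2 i)) with hΩ
  have hmem : ∀ ω, ω ∈ Ω ↔ State nd tl e0 ω.1 ∧ State nd tl e0 (fun i => nx nd (ω.1 i) (ω.2 i)) :=
    fun ω => by simp [hΩ]
  let W : ℝ → (Inn nd e0 → E) × (Inn nd e0 → Bool) → ℂ := fun x ω => ∏ i, wt α x (ω.1 i) (ω.2 i)
  have hnn : ∀ e b, nx nd (nx nd e b) b = nx nd e (!b) := fun e b => by
    cases b <;> simp [nx, h.d.c3]
  have hnn' : ∀ e b, nx nd (nx nd e b) (!b) = e := fun e b => by
    cases b <;> simp [nx, h.d.c3]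
  have hP : ∀ x, ∑ ω ∈ Ω, W x ω = 0 := by
    intro x
    rw [← sum_fiberwise_of_maps_to (g := Prod.fst) (t := Ω.image Prod.fst)
      (fun ω hω => mem_image_of_mem _ hω)]
    refine sum_eq_zero fun r hr => ?_
    obtain ⟨⟨r0, χ0⟩, hω0, rfl⟩ := mem_image.1 hr
    obtain ⟨hr0, hs0⟩ := (hmem _).1 hω0
    simp only at hr0 hs0 ⊢
    have hmx : ∀ F, (fun i => nx nd (r0 i) (flp χ0 F i)) = fun i => if i ∈ F then
        nx nd (nx nd (r0 i) (χ0 i)) (χ0 i) else nx nd (r0 i) (χ0 i) := by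
      intro F; ext i; simp only [flp, hnn]; split_ifs <;> rfl
    have key : ∑ ω ∈ Ω with ω.1 = r0, W x ω = ∑ F ∈ Valid (fun i => tl (nx nd (r0 i) (χ0 i)))
        (fun i => tl (nx nd (nx nd (r0 i) (χ0 i)) (χ0 i))), W x (r0, χ0) *
          ∏ i ∈ F, Complex.exp (-(Real.pi / 3 * sg (χ0 i) * Complex.I)) := by
      symm
      refine sum_nbij' (fun F => (r0, flp χ0 F)) (fun ω => univ.filter fun i => ω.2 i ≠ χ0 i)
        ?_ ?_ ?_ ?_ ?_
      · intro F hF
        refine mem_filter.2 ⟨(hmem _).2 ⟨hr0, ?_⟩, rfl⟩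
        simp only [hmx]
        exact (h.mix_state hs0 χ0 F).2 hF
      · rintro ⟨r, χ⟩ hω
        obtain ⟨h1, rfl⟩ := mem_filter.1 hω
        refine (h.mix_state hs0 χ0 _).1 ?_
        rw [← hmx, flp_filter]
        exact ((hmem _).1 h1).2
      · intro F _; exact filter_flp χ0 F
      · rintro ⟨r, χ⟩ hω
        obtain ⟨-, rfl⟩ := mem_filter.1 hω
        simp only [flp_filter]
      · intro F _
        simp only [W]
        rw [← prod_ite_mem_eq F, ← prod_mul_distrib]
        refine prod_congr rfl fun i _ => ?_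
        simp only [flp]
        split_ifs
        · simp only [wt, sg_not, ← Complex.exp_add]; congr 1; push_cast; ring
        · rw [mul_one]
    rw [key, ← mul_sum, (valid_fam hs0.inj).sum_prod]
    obtain ⟨F, hF, hFne⟩ := hcon r0 χ0 hr0 hs0
    obtain ⟨i, hi⟩ := hFne
    obtain ⟨O, hO, -⟩ := (valid_fam hs0.inj).exists_atom hF hi
    obtain ⟨c, b, hc, -, h3, -⟩ := hα _ χ0 hs0 O hO
    rw [prod_eq_zero hO, mul_zero]
    rw [← Complex.exp_sum, show ∑ i ∈ O, -((Real.pi : ℂ) / 3 * sg (χ0 i) * Complex.I) =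
      -(Real.pi * c * Complex.I) by
        rw [sum_neg_distrib, ← sum_mul, ← mul_sum, ← Complex.ofReal_sum, h3]; push_cast; ring,
      (exp_c c hc).2]
    ring
  let U : (Inn nd e0 → E) × (Inn nd e0 → Bool) → Inn nd e0 → E :=
    fun ω i => nx nd (ω.1 i) (!ω.2 i)
  have hQ : ∀ u, ∃ (T : Finset (Finset (Inn nd e0))) (A c b : Finset (Inn nd e0) → ℝ),
      u ∈ Ω.image U → (∀ k ∈ T, c k = 1 ∨ c k = -1) ∧ (∀ k ∈ T, 0 < b k) ∧
      ∀ x : ℝ, ∑ ω ∈ Ω with U ω = u, W x ω = ∏ k ∈ T, (-Complex.I *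
        ((Real.exp (x * A k) * c k * (Real.exp (x * (c k * b k)) - 1) : ℝ) : ℂ)) := by
    intro u
    by_cases hu : u ∈ Ω.image U
    swap
    · exact ⟨∅, 0, 0, 0, fun hh => absurd hh hu⟩
    obtain ⟨⟨r0, χ0⟩, hω0, rfl⟩ := mem_image.1 hu
    obtain ⟨hr0, hs0⟩ := (hmem _).1 hω0
    simp only at hr0 hs0
    choose! c b hc hb0 h3 h4 using hα r0 χ0 hr0
    refine ⟨_, fun O => ∑ i ∈ O, α (r0 i), c, b, fun _ => ⟨hc, hb0, fun x => ?_⟩⟩
    have hmx : ∀ F, (fun i => nx nd (if i ∈ F then nx nd (r0 i) (χ0 i) else r0 i) (flp χ0 F i)) =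
        fun i => if i ∈ F then nx nd (nx nd (r0 i) (χ0 i)) (!χ0 i) else nx nd (r0 i) (χ0 i) := by
      intro F; ext i; simp only [flp]; split_ifs <;> rfl
    have hback : ∀ r χ, U (r, χ) = U (r0, χ0) → (fun i => if i ∈ univ.filter
        (fun i => χ i ≠ χ0 i) then nx nd (r0 i) (χ0 i) else r0 i) = r := by
      intro r χ hU
      ext i
      have h1 := congrFun hU i
      simp only [U] at h1
      simp only [mem_filter, mem_univ, true_and]
      have h2 := congrArg (fun e => nx nd e (χ i)) h1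
      revert h2
      cases χ i <;> cases χ0 i <;> simp [nx, h.d.c3] <;> exact fun hh => hh.symm
    have key : ∑ ω ∈ Ω with U ω = U (r0, χ0), W x ω = ∑ F ∈ Valid (fun i => tl (r0 i))
        (fun i => tl (nx nd (r0 i) (χ0 i))), W x (r0, χ0) *
          ∏ i ∈ F, Complex.exp (-(Real.pi / 3 * sg (χ0 i) * Complex.I) +
            x * (α (nx nd (r0 i) (χ0 i)) - α (r0 i))) := by
      symm
      refine sum_nbij' (fun F => (fun i => if i ∈ F then nx nd (r0 i) (χ0 i) else r0 i, flp χ0 F))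
        (fun ω => univ.filter fun i => ω.2 i ≠ χ0 i) ?_ ?_ ?_ ?_ ?_
      · intro F hF
        refine mem_filter.2 ⟨(hmem _).2 ⟨(h.mix_state hr0 χ0 F).2 hF, ?_⟩, ?_⟩
        · simp only [hmx]
          refine (h.mix_state hs0 (fun i => !χ0 i) F).2 ?_
          simp only [hnn']
          exact valid_symm hF
        · ext i
          simp only [U, flp]
          split_ifs
          · rw [Bool.not_not, hnn]
          · rfl
      · rintro ⟨r, χ⟩ hω
        obtain ⟨h1, h2⟩ := mem_filter.1 hω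
        refine (h.mix_state hr0 χ0 _).1 ?_
        rw [hback r χ h2]
        exact ((hmem _).1 h1).1
      · intro F _; exact filter_flp χ0 F
      · rintro ⟨r, χ⟩ hω
        obtain ⟨-, h2⟩ := mem_filter.1 hω
        simp only [flp_filter, hback r χ h2]
      · intro F _
        simp only [W]
        rw [← prod_ite_mem_eq F, ← prod_mul_distrib]
        refine prod_congr rfl fun i _ => ?_
        simp only [flp]
        split_ifs
        · simp only [wt, sg_not, ← Complex.exp_add]; congr 1; push_cast; ring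
        · rw [mul_one]
    have huniv : univ ∈ Valid (fun i => tl (r0 i)) (fun i => tl (nx nd (r0 i) (χ0 i))) := by
      rw [mem_valid, h.image_eq _ hs0.inj hs0.nr, h.image_eq _ hr0.inj hr0.nr]
    rw [key, ← mul_sum, (valid_fam hr0.inj).sum_prod]
    simp only [W]
    rw [(valid_fam hr0.inj).prod_univ huniv, ← prod_mul_distrib]
    refine prod_congr rfl fun O hO => ?_
    simp only [wt]
    rw [← Complex.exp_sum, ← Complex.exp_sum, sum_add_distrib, sum_add_distrib, Complex.exp_add,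
      Complex.exp_add,
      show ∑ i ∈ O, -((Real.pi : ℂ) / 3 * sg (χ0 i) * Complex.I) = -(Real.pi * c O * Complex.I) by
        rw [sum_neg_distrib, ← sum_mul, ← mul_sum, ← Complex.ofReal_sum, h3 O hO]; push_cast; ring,
      show ∑ i ∈ O, ((Real.pi : ℂ) / 6 * sg (χ0 i) * Complex.I) = Real.pi / 2 * c O * Complex.I by
        rw [← sum_mul, ← mul_sum, ← Complex.ofReal_sum, h3 O hO]; push_cast; ring,
      (exp_c _ (hc O hO)).1, (exp_c _ (hc O hO)).2, ← h4 O hO, ← mul_sum, ← mul_sum]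
    push_cast
    ring
  choose T A c b hT using hQ
  obtain ⟨r, χ, h1, h2⟩ := h.exists_pair hb
  refine expsum_ne (Ω.image U) ⟨_, mem_image_of_mem U ((hmem (r, χ)).2 ⟨h1, h2⟩)⟩ T A c b
    (fun u hu => (hT u hu).1) (fun u hu => (hT u hu).2.1) fun x => ?_
  rw [← hP x, ← sum_fiberwise_of_maps_to (g := U) (t := Ω.image U)
      (fun ω hω => mem_image_of_mem _ hω)]
  exact sum_congr rfl fun u hu => ((hT u hu).2.2 x).symm

end Vale.Agent.P039
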