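import Mathlib

namespace Vale.Agent.P039
open Finset

section atoms
variable {I : Type*} [DecidableEq I]

/-- A family of finsets closed under union and difference. -/
structure Fam (W : Finset (Finset I)) : Prop where
  emp : ∅ ∈ W
  un : ∀ F ∈ W, ∀ G ∈ W, F ∪ G ∈ W
  sd : ∀ F ∈ W, ∀ G ∈ W, F \ G ∈ W

/-- Minimal nonempty members. -/
def atoms (W : Finset (Finset I)) : Finset (Finset I) :=
  W.filter fun O => O.Nonempty ∧ ∀ F ∈ W, F ⊆ O → F = ∅ ∨ F = O

theorem mem_atoms {W : Finset (Finset I)} {O : Finset I} :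
    O ∈ atoms W ↔ O ∈ W ∧ O.Nonempty ∧ ∀ F ∈ W, F ⊆ O → F = ∅ ∨ F = O := by
  simp [atoms]

theorem Fam.inter {W : Finset (Finset I)} (h : Fam W) {F G : Finset I} (hF : F ∈ W) (hG : G ∈ W) :
    F ∩ G ∈ W := by
  have : F ∩ G = F \ (F \ G) := by ext; simp only [mem_inter, mem_sdiff]; tauto
  rw [this]; exact h.sd _ hF _ (h.sd _ hF _ hG)

theorem Fam.atom_sub {W : Finset (Finset I)} (h : Fam W) {O F : Finset I} (hO : O ∈ atoms W)
    (hF : F ∈ W) {i : I} (hi : i ∈ O) (hiF : i ∈ F) : O ⊆ F := by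
  obtain ⟨h1, -, h3⟩ := mem_atoms.1 hO
  rcases h3 _ (h.inter h1 hF) inter_subset_left with h4 | h4
  · have : i ∈ O ∩ F := mem_inter.2 ⟨hi, hiF⟩
    rw [h4] at this; simp at this
  · rw [← h4]; exact inter_subset_right

theorem Fam.atom_disj {W : Finset (Finset I)} (h : Fam W) {O O' : Finset I} (hO : O ∈ atoms W)
    (hO' : O' ∈ atoms W) (hne : O ≠ O') : Disjoint O O' := by
  rw [Finset.disjoint_left]
  intro i hi hi'
  exact hne (Subset.antisymm (h.atom_sub hO (mem_atoms.1 hO').1 hi hi')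
    (h.atom_sub hO' (mem_atoms.1 hO).1 hi' hi))

theorem Fam.exists_atom {W : Finset (Finset I)} (h : Fam W) {F : Finset I} (hF : F ∈ W) {i : I}
    (hi : i ∈ F) : ∃ O ∈ atoms W, i ∈ O := by
  obtain ⟨O, hO, hmin⟩ := (W.filter fun G => i ∈ G).exists_min_image card ⟨F, by simp [hF, hi]⟩
  simp only [mem_filter] at hO hmin
  refine ⟨O, mem_atoms.2 ⟨hO.1, ⟨i, hO.2⟩, fun G hG hGO => ?_⟩, hO.2⟩
  by_cases hiG : i ∈ G
  · right; exact eq_of_subset_of_card_le hGO (hmin G ⟨hG, hiG⟩)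
  · left
    have h1 := hmin (O \ G) ⟨h.sd _ hO.1 _ hG, mem_sdiff.2 ⟨hO.2, hiG⟩⟩
    have h2 := card_sdiff_add_card_eq_card hGO
    exact card_eq_zero.1 (by omega)

theorem Fam.biUnion_mem {W : Finset (Finset I)} (h : Fam W) (S : Finset (Finset I))
    (hS : S ⊆ W) : S.biUnion id ∈ W := by
  induction S using Finset.induction_on with
  | empty => simpa using h.emp
  | insert a S ha ih =>
    rw [biUnion_insert]
    exact h.un _ (hS (mem_insert_self _ _)) _ (ih fun x hx => hS (mem_insert_of_mem hx))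

theorem Fam.prod_biUnion {W : Finset (Finset I)} (h : Fam W) (S : Finset (Finset I))
    (hS : S ⊆ atoms W) (f : I → ℂ) : ∏ i ∈ S.biUnion id, f i = ∏ O ∈ S, ∏ i ∈ O, f i := by
  rw [Finset.prod_biUnion]
  · rfl
  · intro O hO O' hO' hne
    exact h.atom_disj (hS hO) (hS hO') hne

theorem Fam.biUnion_filter {W : Finset (Finset I)} (h : Fam W) {F : Finset I} (hF : F ∈ W) :
    ((atoms W).filter fun O => O ⊆ F).biUnion id = F := by
  ext i
  simp only [mem_biUnion, mem_filter, id]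
  constructor
  · rintro ⟨O, ⟨-, h2⟩, h3⟩; exact h2 h3
  · intro hi
    obtain ⟨O, hO, hiO⟩ := h.exists_atom hF hi
    exact ⟨O, ⟨hO, h.atom_sub hO hF hiO hi⟩, hiO⟩

theorem Fam.sum_prod {W : Finset (Finset I)} (h : Fam W) (f : I → ℂ) :
    ∑ F ∈ W, ∏ i ∈ F, f i = ∏ O ∈ atoms W, (1 + ∏ i ∈ O, f i) := by
  rw [Finset.prod_one_add]
  symm
  refine Finset.sum_nbij' (fun S => S.biUnion id) (fun F => (atoms W).filter fun O => O ⊆ F)
    ?_ ?_ ?_ ?_ ?_
  · intro S hS
    exact h.biUnion_mem S fun O hO => (mem_atoms.1 (mem_powerset.1 hS hO)).1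
  · intro F _
    exact mem_powerset.2 (filter_subset _ _)
  · intro S hS
    have hS' := mem_powerset.1 hS
    ext O
    simp only [mem_filter]
    constructor
    · rintro ⟨h1, h2⟩
      obtain ⟨i, hi⟩ := (mem_atoms.1 h1).2.1
      obtain ⟨O', hO', hi'⟩ := mem_biUnion.1 (h2 hi)
      by_contra hne
      have : O ≠ O' := fun e => hne (e ▸ hO')
      exact Finset.disjoint_left.1 (h.atom_disj h1 (hS' hO') this) hi hi'
    · intro hO
      exact ⟨hS' hO, subset_biUnion_of_mem id hO⟩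
  · intro F hF
    exact h.biUnion_filter hF
  · intro S hS
    exact (h.prod_biUnion S (mem_powerset.1 hS) f).symm

theorem Fam.prod_univ [Fintype I] {W : Finset (Finset I)} (h : Fam W) (hu : univ ∈ W)
    (f : I → ℂ) : ∏ i, f i = ∏ O ∈ atoms W, ∏ i ∈ O, f i := by
  have h1 := h.biUnion_filter hu
  rw [filter_true_of_mem (fun O _ => subset_univ O)] at h1
  rw [← h.prod_biUnion _ Subset.rfl f, h1]

end atoms

/-- The exponential sum does not vanish identically. -/
theorem expsum_ne {U K : Type*} (S : Finset U) (hS : S.Nonempty) (T : U → Finset K)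
    (A c b : U → K → ℝ) (hc : ∀ u ∈ S, ∀ k ∈ T u, c u k = 1 ∨ c u k = -1)
    (hb : ∀ u ∈ S, ∀ k ∈ T u, 0 < b u k) :
    ¬ ∀ x : ℝ, ∑ u ∈ S, ∏ k ∈ T u, (-Complex.I * ((Real.exp (x * A u k) * c u k *
      (Real.exp (x * (c u k * b u k)) - 1) : ℝ) : ℂ)) = 0 := by
  intro hz
  obtain ⟨u0, hu0, hmin⟩ := S.exists_min_image (fun u => (T u).card) hS
  set L := (T u0).card
  let D : ℝ → ℝ := dslope Real.exp 0
  have hD : ∀ y, Real.exp y - 1 = y * D y := by
    intro y
    have := sub_smul_dslope Real.exp 0 y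
    simp only [sub_zero, smul_eq_mul, Real.exp_zero] at this
    exact this.symm
  have hD0 : D 0 = 1 := by simp [D, dslope_same, Real.deriv_exp]
  have hDc : ContinuousAt D 0 := continuousAt_dslope_same.2 (Real.differentiable_exp 0)
  let Y : ℝ → ℂ := fun x => ∑ u ∈ S, (x : ℂ) ^ ((T u).card - L) * ∏ k ∈ T u,
    (-Complex.I * ((Real.exp (x * A u k) * b u k * D (x * (c u k * b u k)) : ℝ) : ℂ))
  have hY : ∀ x : ℝ, (x : ℂ) ^ L * Y x = 0 := by
    intro x
    rw [← hz x, mul_sum]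
    refine sum_congr rfl fun u hu => ?_
    rw [← mul_assoc, ← pow_add, Nat.add_sub_cancel' (hmin u hu), ← prod_const, ← prod_mul_distrib]
    refine prod_congr rfl fun k hk => ?_
    rw [hD]
    rcases hc u hu k hk with h | h <;> rw [h] <;> push_cast <;> ring
  have hYc : ContinuousAt Y 0 := by
    refine tendsto_finset_sum _ fun u _ => ContinuousAt.mul (by fun_prop) ?_
    refine tendsto_finset_prod _ fun k _ => ContinuousAt.mul continuousAt_const ?_
    refine Complex.continuous_ofReal.continuousAt.comp ?_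
    refine ContinuousAt.mul (by fun_prop) ?_
    refine ContinuousAt.comp (g := D) (by simpa using hDc) (by fun_prop)
  have hY0 : Y 0 = 0 := by
    have h1 : Filter.Tendsto Y (nhdsWithin 0 {0}ᶜ) (nhds (Y 0)) := hYc.tendsto.mono_left nhdsWithin_le_nhds
    have h2 : Filter.Tendsto Y (nhdsWithin 0 {0}ᶜ) (nhds 0) := by
      refine tendsto_const_nhds.congr' ?_
      filter_upwards [self_mem_nhdsWithin] with x hx
      have hx' : (x : ℂ) ≠ 0 := by exact_mod_cast hx
      exact ((mul_eq_zero.1 (hY x)).resolve_left (pow_ne_zero _ hx')).symm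
    exact tendsto_nhds_unique h1 h2
  have hval : Y 0 = (-Complex.I) ^ L *
      ((∑ u ∈ S, (0 : ℝ) ^ ((T u).card - L) * ∏ k ∈ T u, b u k : ℝ) : ℂ) := by
    simp only [Y]
    push_cast
    rw [mul_sum]
    refine sum_congr rfl fun u hu => ?_
    simp only [zero_mul, hD0, Complex.exp_zero, one_mul, Complex.ofReal_one, mul_one]
    rw [prod_mul_distrib, prod_const]
    rcases Nat.eq_or_lt_of_le (hmin u hu) with h | h
    · rw [← h]; simp
    · rw [zero_pow (by omega)]; simp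
  rw [hY0] at hval
  have hpos : 0 < ∑ u ∈ S, (0 : ℝ) ^ ((T u).card - L) * ∏ k ∈ T u, b u k := by
    refine sum_pos' (fun u hu => mul_nonneg (by positivity)
      (prod_nonneg fun k hk => (hb u hu k hk).le)) ⟨u0, hu0, ?_⟩
    simp only [L, Nat.sub_self, pow_zero, one_mul]
    exact prod_pos fun k hk => hb u0 hu0 k hk
  rcases mul_eq_zero.1 hval.symm with h | h
  · exact pow_ne_zero _ (neg_ne_zero.2 Complex.I_ne_zero) h
  · exact hpos.ne' (by exact_mod_cast h)

section lin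
variable {J K N : Type*} [Fintype J] [Fintype K] [Fintype N]

theorem coprod_inj (f : (J → ℝ) →ₗ[ℝ] (N → ℝ)) (g : (K → ℝ) →ₗ[ℝ] (N → ℝ))
    (hf : ∀ x, f x = 0 → x = 0) (hg : ∀ y, g y = 0 → y = 0) (ho : ∀ x y, f x ⬝ᵥ g y = 0) :
    Function.Injective (f.coprod g) := by
  rw [← LinearMap.ker_eq_bot, LinearMap.ker_eq_bot']
  rintro ⟨x, y⟩ h
  simp only [LinearMap.coprod_apply] at h
  have h1 : f x ⬝ᵥ f x = 0 := by
    have := congrArg (fun z => f x ⬝ᵥ z) h
    simpa [dotProduct_add, ho] using this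
  have h2 : f x = 0 := dotProduct_self_eq_zero.1 h1
  rw [h2, zero_add] at h
  rw [hf x h2, hg y h]; rfl

theorem rank_ineq (f : (J → ℝ) →ₗ[ℝ] (N → ℝ)) (g : (K → ℝ) →ₗ[ℝ] (N → ℝ))
    (hf : ∀ x, f x = 0 → x = 0) (hg : ∀ y, g y = 0 → y = 0) (ho : ∀ x y, f x ⬝ᵥ g y = 0) :
    Fintype.card J + Fintype.card K ≤ Fintype.card N ∧
      (Fintype.card J + Fintype.card K = Fintype.card N → ∀ z, ∃ x y, z = f x + g y) := by
  have hi := coprod_inj f g hf hg ho
  have hr : Module.finrank ℝ ((J → ℝ) × (K → ℝ)) = Fintype.card J + Fintype.card K := by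
    simp [Module.finrank_prod]
  constructor
  · have := LinearMap.finrank_le_finrank_of_injective hi
    rw [hr] at this; simpa using this
  · intro he z
    have hs := (LinearMap.injective_iff_surjective_of_finrank_eq_finrank
      (f := f.coprod g) (by rw [hr]; simpa using he)).1 hi
    obtain ⟨⟨x, y⟩, h⟩ := hs z
    exact ⟨x, y, by simpa using h.symm⟩

theorem gram_solve [DecidableEq K] (g : (K → ℝ) →ₗ[ℝ] (N → ℝ)) (hg : ∀ y, g y = 0 → y = 0)
    (w : K → ℝ) : ∃ z : N → ℝ, ∀ k, z ⬝ᵥ g (Pi.single k 1) = w k := by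
  let T : (K → ℝ) →ₗ[ℝ] (K → ℝ) :=
    { toFun := fun x k => g x ⬝ᵥ g (Pi.single k 1)
      map_add' := by intro x y; ext k; simp [add_dotProduct]
      map_smul' := by intro c x; ext k; simp [smul_dotProduct] }
  have hT : Function.Injective T := by
    rw [← LinearMap.ker_eq_bot, LinearMap.ker_eq_bot']
    intro x hx
    apply hg
    apply dotProduct_self_eq_zero.1
    have hx2 : x = ∑ k, x k • (Pi.single k 1 : K → ℝ) := by
      ext j; simp [Finset.sum_apply, Pi.single_apply]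
    have : g x ⬝ᵥ g x = ∑ k, x k * T x k := by
      conv_lhs => rw [show g x ⬝ᵥ g x = g x ⬝ᵥ g (∑ k, x k • (Pi.single k 1 : K → ℝ)) by
        rw [← hx2]]
      rw [map_sum, dotProduct_sum]
      refine sum_congr rfl fun k _ => ?_
      rw [map_smul, dotProduct_smul]; rfl
    rw [this, hx]; simp
  obtain ⟨x, hx⟩ := LinearMap.injective_iff_surjective.1 hT w
  exact ⟨g x, fun k => congrFun hx k⟩

end lin

end Vale.Agent.P039
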