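import Vale.Agent.P039.Atoms

namespace Vale.Agent.P039
open Finset

variable {E V : Type*} [Fintype E] [DecidableEq E] [DecidableEq V]

/-- A fixed point free map of order three. -/
structure Ord3 (f : E → E) : Prop where
  c3 : ∀ e, f (f (f e)) = e
  n1 : ∀ e, f e ≠ e

/-- Invariant finsets. -/
def Inv (f : E → E) (A : Finset E) : Prop := ∀ e, f e ∈ A ↔ e ∈ A

/-- The orbit of an element. -/
def orb (f : E → E) (e : E) : Finset E := {e, f e, f (f e)}

/-- Abstract two-coloured triangulated surface whose dual graph is 3-edge-connected. -/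
structure Pre (nd nl : E → E) (tl : E → V) : Prop where
  d : Ord3 nd
  l : Ord3 nl
  hd : ∀ e, tl (nl e) = tl (nd e)
  cut : ∀ A B : Finset E, Inv nd A → Inv nl B → (A \ B).card + (B \ A).card ≤ 2 →
    (A = ∅ ∧ B = ∅) ∨ (A = univ ∧ B = univ)

theorem Pre.swap {nd nl : E → E} {tl : E → V} (h : Pre nd nl tl) : Pre nl nd tl :=
  ⟨h.l, h.d, fun e => (h.hd e).symm, fun A B hA hB hc => by
    rcases h.cut B A hB hA (by omega) with h | h
    · exact Or.inl ⟨h.2, h.1⟩
    · exact Or.inr ⟨h.2, h.1⟩⟩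

namespace Ord3
variable {f : E → E}
omit [Fintype E] [DecidableEq E] in
theorem inj (h : Ord3 f) : Function.Injective f := fun a b hab => by
  rw [← h.c3 a, hab, h.c3]
omit [Fintype E] [DecidableEq E] in
theorem bij (h : Ord3 f) : Function.Bijective f := ⟨h.inj, fun a => ⟨_, h.c3 a⟩⟩
omit [Fintype E] [DecidableEq E] in
theorem n2 (h : Ord3 f) (e : E) : f (f e) ≠ e := fun he => by
  have := h.c3 e; rw [he] at this; exact h.n1 e this

omit [Fintype E] in
theorem orb_f (h : Ord3 f) (e : E) : orb f (f e) = orb f e := by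
  ext x; simp only [orb, h.c3, mem_insert, mem_singleton]; tauto
omit [Fintype E] in
theorem card_orb (h : Ord3 f) (e : E) : (orb f e).card = 3 := by
  rw [orb, card_eq_three]
  exact ⟨_, _, _, (h.n1 e).symm, (h.n2 e).symm, (h.n1 _).symm, rfl⟩
omit [Fintype E] in
theorem mem_orb (h : Ord3 f) {e x : E} : x ∈ orb f e ↔ orb f x = orb f e := by
  constructor
  · intro hx
    simp only [orb, mem_insert, mem_singleton] at hx
    rcases hx with rfl | rfl | rfl
    · rfl
    · exact h.orb_f e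
    · rw [h.orb_f, h.orb_f]
  · intro hx; rw [← hx]; simp [orb]

theorem sum_comp {M : Type*} [AddCommMonoid M] (h : Ord3 f) (g : E → M) :
    ∑ e, g (f e) = ∑ e, g e := h.bij.sum_comp g

theorem sum_inv {M : Type*} [AddCommMonoid M] (h : Ord3 f) {A : Finset E} (hA : Inv f A)
    (g : E → M) : ∑ e ∈ A, g (f e) = ∑ e ∈ A, g e := by
  have := h.sum_comp (fun e => if e ∈ A then g e else 0)
  simp only [hA _] at this
  simpa [sum_ite_mem] using this

theorem closed (h : Ord3 f) (a g : E → ℝ) (ha : ∀ e, a (f e) = a e) :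
    ∑ e, a e * (g (f e) - g e) = 0 := by
  have := h.sum_comp (fun e => a e * g e)
  simp only [ha] at this
  simp [mul_sub, sum_sub_distrib, this]
end Ord3

omit [Fintype E] in
theorem self_mem_orb (f : E → E) (e : E) : e ∈ orb f e := by simp [orb]

omit [Fintype E] in
theorem Inv.orb_sub {f : E → E} {A : Finset E} (hA : Inv f A) {e : E} (he : e ∈ A) :
    orb f e ⊆ A := by
  intro x hx
  simp only [orb, mem_insert, mem_singleton] at hx
  rcases hx with rfl | rfl | rfl
  · exact he
  · exact (hA _).2 he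
  · exact (hA _).2 ((hA _).2 he)

omit [Fintype E] in
theorem Inv.mem_of_orb {f : E → E} {A : Finset E} (hA : Inv f A) {e x : E} (he : e ∈ A)
    (hx : orb f x = orb f e) : x ∈ A := hA.orb_sub he (hx ▸ self_mem_orb f x)

omit [Fintype E] in
theorem Inv.orb_mem_image {f : E → E} {A : Finset E} (hA : Inv f A) {e : E} :
    orb f e ∈ A.image (orb f) ↔ e ∈ A := by
  constructor
  · intro h
    obtain ⟨x, hx, hxe⟩ := mem_image.1 h
    exact hA.mem_of_orb hx hxe.symm
  · exact mem_image_of_mem _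

theorem Inv.compl {f : E → E} {A : Finset E} (hA : Inv f A) : Inv f Aᶜ := fun e => by
  simp [hA e]

theorem inv_univ (f : E → E) : Inv f univ := fun e => by simp

omit [Fintype E] in
theorem Ord3.card_image {f : E → E} (h : Ord3 f) {A : Finset E} (hA : Inv f A) :
    A.card = 3 * (A.image (orb f)).card := by
  rw [card_eq_sum_card_image (orb f) A, mul_comm, ← smul_eq_mul, ← sum_const]
  refine sum_congr rfl fun t ht => ?_
  obtain ⟨e, he, rfl⟩ := mem_image.1 ht
  rw [← h.card_orb e]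
  congr 1
  ext x
  simp only [mem_filter, h.mem_orb]
  exact ⟨fun h => h.2, fun hx => ⟨hA.mem_of_orb he hx, hx⟩⟩

/-- Extension by zero. -/
noncomputable def ext0 {α : Type*} [DecidableEq α] (s : Finset α) : (s → ℝ) →ₗ[ℝ] (α → ℝ) where
  toFun := fun x a => if h : a ∈ s then x ⟨a, h⟩ else 0
  map_add' := by intro x y; ext a; by_cases h : a ∈ s <;> simp [h]
  map_smul' := by intro c x; ext a; by_cases h : a ∈ s <;> simp [h]

theorem ext0_notMem {α : Type*} [DecidableEq α] (s : Finset α) (x : s → ℝ) {a : α} (h : a ∉ s) :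
    ext0 s x a = 0 := by simp [ext0, h]

theorem ext0_coe {α : Type*} [DecidableEq α] (s : Finset α) (x : s → ℝ) (a : s) :
    ext0 s x a = x a := by simp [ext0]

theorem ext0_eq_zero {α : Type*} [DecidableEq α] (s : Finset α) (x : s → ℝ)
    (h : ∀ a, ext0 s x a = 0) : x = 0 := by
  ext a; rw [← ext0_coe s x a, h]; rfl

/-- A chain with zero boundary. -/
def Cyc (nd : E → E) (tl : E → V) (z : E → ℝ) : Prop :=
  ∀ ψ : V → ℝ, ∑ e, z e * (ψ (tl (nd e)) - ψ (tl e)) = 0

variable {nd nl : E → E} {tl : E → V}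

theorem Pre.cyc_sub (h : Pre nd nl tl) (a b : E → ℝ) (ha : ∀ e, a (nd e) = a e)
    (hb : ∀ e, b (nl e) = b e) : Cyc nd tl (fun e => a e - b e) := by
  intro ψ
  have h1 := h.d.closed a (fun e => ψ (tl e)) ha
  have h2 := h.l.closed b (fun e => ψ (tl e)) hb
  simp only [h.hd] at h2
  simp only [sub_mul, sum_sub_distrib, h1, h2, sub_self]

/-- The map from face functions to edge functions. -/
noncomputable def faceMap (nd nl : E → E) (RD RL : Finset (Finset E)) (EI : Finset E) :
    (RD ⊕ RL → ℝ) →ₗ[ℝ] (EI → ℝ) where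
  toFun := fun y e => ext0 RD (fun t => y (Sum.inl t)) (orb nd e) -
    ext0 RL (fun t => y (Sum.inr t)) (orb nl e)
  map_add' := by
    intro x y; ext e
    have h1 := congrFun ((ext0 RD).map_add (fun t => x (Sum.inl t)) (fun t => y (Sum.inl t)))
      (orb nd e)
    have h2 := congrFun ((ext0 RL).map_add (fun t => x (Sum.inr t)) (fun t => y (Sum.inr t)))
      (orb nl e)
    simp only [Pi.add_apply] at h1 h2 ⊢
    rw [show (fun t => x (Sum.inl t) + y (Sum.inl t)) =
      (fun t => x (Sum.inl t)) + (fun t : RD => y (Sum.inl t)) from rfl,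
      show (fun t => x (Sum.inr t) + y (Sum.inr t)) =
      (fun t => x (Sum.inr t)) + (fun t : RL => y (Sum.inr t)) from rfl, h1, h2]
    ring
  map_smul' := by
    intro c x; ext e
    have h1 := congrFun ((ext0 RD).map_smul c (fun t => x (Sum.inl t))) (orb nd e)
    have h2 := congrFun ((ext0 RL).map_smul c (fun t => x (Sum.inr t))) (orb nl e)
    simp only [Pi.smul_apply, smul_eq_mul, RingHom.id_apply] at h1 h2 ⊢
    rw [show (fun t => c * x (Sum.inl t)) = c • (fun t : RD => x (Sum.inl t)) from rfl,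
      show (fun t => c * x (Sum.inr t)) = c • (fun t : RL => x (Sum.inr t)) from rfl, h1, h2]
    ring

theorem faceMap_inj (RD RL : Finset (Finset E)) (EI : Finset E)
    (hc : ∀ a b : Finset E → ℝ, (∀ t ∉ RD, a t = 0) → (∀ t ∉ RL, b t = 0) →
      (∀ e ∈ EI, a (orb nd e) = b (orb nl e)) → (∀ t, a t = 0) ∧ ∀ t, b t = 0) :
    ∀ y, faceMap nd nl RD RL EI y = 0 → y = 0 := by
  intro y hy
  obtain ⟨h1, h2⟩ := hc (ext0 RD fun t => y (Sum.inl t)) (ext0 RL fun t => y (Sum.inr t))
    (fun t ht => ext0_notMem _ _ ht) (fun t ht => ext0_notMem _ _ ht)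
    (fun e he => sub_eq_zero.1 (congrFun hy ⟨e, he⟩))
  have h3 := ext0_eq_zero _ _ h1
  have h4 := ext0_eq_zero _ _ h2
  ext (t | t)
  · exact congrFun h3 t
  · exact congrFun h4 t

theorem Pre.euler_gen (h : Pre nd nl tl) (RD RL : Finset (Finset E)) (EI : Finset E)
    (X : Finset V)
    (ha : ∀ e ∉ EI, (tl e ∉ X ∧ tl (nd e) ∉ X) ∨ (orb nd e ∉ RD ∧ orb nl e ∉ RL))
    (hb : ∀ ψ : V → ℝ, (∀ v ∉ X, ψ v = 0) → (∀ e ∈ EI, ψ (tl (nd e)) = ψ (tl e)) → ∀ v, ψ v = 0)
    (hc : ∀ a b : Finset E → ℝ, (∀ t ∉ RD, a t = 0) → (∀ t ∉ RL, b t = 0) →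
      (∀ e ∈ EI, a (orb nd e) = b (orb nl e)) → (∀ t, a t = 0) ∧ ∀ t, b t = 0) :
    X.card + (RD.card + RL.card) ≤ EI.card ∧ (X.card + (RD.card + RL.card) = EI.card →
      ∀ z : E → ℝ, ∃ (ψ : V → ℝ) (a b : Finset E → ℝ), (∀ t ∉ RD, a t = 0) ∧
        ∀ e ∈ EI, z e = (ψ (tl (nd e)) - ψ (tl e)) + (a (orb nd e) - b (orb nl e))) := by
  let f : (X → ℝ) →ₗ[ℝ] (EI → ℝ) :=
    { toFun := fun x e => ext0 X x (tl (nd e)) - ext0 X x (tl e)
      map_add' := by intro x y; ext e; simp only [map_add, Pi.add_apply]; ring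
      map_smul' := by
        intro c x; ext e; simp only [map_smul, Pi.smul_apply, smul_eq_mul, RingHom.id_apply]; ring }
  have hf : ∀ x, f x = 0 → x = 0 := fun x hx =>
    ext0_eq_zero _ _ (hb _ (fun v hv => ext0_notMem _ _ hv)
      (fun e he => sub_eq_zero.1 (congrFun hx ⟨e, he⟩)))
  have ho : ∀ x y, f x ⬝ᵥ faceMap nd nl RD RL EI y = 0 := by
    intro x y
    have h1 := h.cyc_sub (fun e => ext0 RD (fun t => y (Sum.inl t)) (orb nd e))
      (fun e => ext0 RL (fun t => y (Sum.inr t)) (orb nl e)) (fun e => by rw [h.d.orb_f])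
      (fun e => by rw [h.l.orb_f]) (ext0 X x)
    rw [← h1, ← sum_subset (subset_univ EI), ← sum_coe_sort EI]
    · exact sum_congr rfl fun e _ => mul_comm _ _
    · intro e _ he
      rcases ha e he with ⟨h2, h3⟩ | ⟨h2, h3⟩
      · rw [ext0_notMem _ _ h2, ext0_notMem _ _ h3]; simp
      · simp only [ext0_notMem _ _ h2, ext0_notMem _ _ h3]; simp
  obtain ⟨h1, h2⟩ := rank_ineq f _ hf (faceMap_inj RD RL EI hc) ho
  simp only [Fintype.card_coe, Fintype.card_sum] at h1 h2
  refine ⟨h1, fun he z => ?_⟩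
  obtain ⟨x, y, hxy⟩ := h2 he (fun e => z e)
  exact ⟨ext0 X x, _, _, fun t ht => ext0_notMem _ _ ht, fun e he => congrFun hxy ⟨e, he⟩⟩

/-- Level sets: invariant functions agreeing off at most two edges. -/
theorem Pre.level (h : Pre nd nl tl) (a b : E → ℝ) (ha : ∀ e, a (nd e) = a e)
    (hb : ∀ e, b (nl e) = b e) (S : Finset E) (hS : S.card ≤ 2) (hab : ∀ e ∉ S, a e = b e)
    (e0 : E) : (∀ e, a e = a e0) ∧ ∀ e, b e = a e0 := by
  have hdis : Disjoint ((univ.filter fun e => a e = a e0) \ (univ.filter fun e => b e = a e0))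
      ((univ.filter fun e => b e = a e0) \ (univ.filter fun e => a e = a e0)) :=
    disjoint_sdiff_sdiff
  have hc := card_le_card (s := ((univ.filter fun e => a e = a e0) \
      (univ.filter fun e => b e = a e0)) ∪
      ((univ.filter fun e => b e = a e0) \ (univ.filter fun e => a e = a e0))) (t := S) (by
    intro e he
    by_contra hn
    simp [hab e hn] at he)
  rw [card_union_of_disjoint hdis] at hc
  rcases h.cut _ _ (fun e => by simp [ha]) (fun e => by simp [hb]) (hc.trans hS) with h1 | h1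
  · have : e0 ∈ (univ.filter fun e => a e = a e0) := by simp
    rw [h1.1] at this; simp at this
  · exact ⟨fun e => by simpa using (h1.1.symm ▸ mem_univ e : e ∈ univ.filter fun e => a e = a e0),
      fun e => by simpa using (h1.2.symm ▸ mem_univ e : e ∈ univ.filter fun e => b e = a e0)⟩

theorem Pre.global (h : Pre nd nl tl) (e0 : E) :
    3 * (univ.image tl).card ≤ Fintype.card E + 6 ∧
    (3 * (univ.image tl).card = Fintype.card E + 6 → ∀ z, Cyc nd tl z →
      ∃ a b : E → ℝ, (∀ e, a (nd e) = a e) ∧ (∀ e, b (nl e) = b e) ∧ a e0 = 0 ∧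
        ∀ e, z e = a e - b e) := by
  obtain ⟨h1, h2⟩ := h.euler_gen ((univ.image (orb nd)).erase (orb nd e0)) (univ.image (orb nl))
    univ ((univ.image tl).erase (tl e0)) (fun e he => absurd (mem_univ e) he)
    (fun ψ h0 hψ v => by
      have := (h.level (fun e => ψ (tl e)) (fun e => ψ (tl e)) (fun e => hψ e (mem_univ e))
        (fun e => by simp only [h.hd]; exact hψ e (mem_univ e)) ∅ (by simp) (fun _ _ => rfl) e0).1
      by_cases hv : v ∈ univ.image tl
      · obtain ⟨e, -, rfl⟩ := mem_image.1 hv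
        rw [this e]; exact h0 _ (by simp)
      · exact h0 v fun hh => hv (mem_of_mem_erase hh))
    (fun a b h0 h0' hab => by
      obtain ⟨h3, h4⟩ := h.level (fun e => a (orb nd e)) (fun e => b (orb nl e))
        (fun e => by rw [h.d.orb_f]) (fun e => by rw [h.l.orb_f]) ∅ (by simp)
        (fun e _ => hab e (mem_univ e)) e0
      have h5 : a (orb nd e0) = 0 := h0 _ (by simp)
      constructor
      · intro t
        by_cases ht : t ∈ univ.image (orb nd)
        · obtain ⟨e, -, rfl⟩ := mem_image.1 ht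
          rw [h3 e, h5]
        · exact h0 t fun hh => ht (mem_of_mem_erase hh)
      · intro t
        by_cases ht : t ∈ univ.image (orb nl)
        · obtain ⟨e, -, rfl⟩ := mem_image.1 ht
          rw [h4 e, h5]
        · exact h0' t ht)
  have c1 := h.d.card_image (inv_univ nd)
  have c2 := h.l.card_image (inv_univ nl)
  have c3 := card_erase_add_one (mem_image_of_mem (orb nd) (mem_univ e0))
  have c4 := card_erase_add_one (mem_image_of_mem tl (mem_univ e0))
  rw [card_univ] at h1 h2 c1 c2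
  refine ⟨by omega, fun he z hz => ?_⟩
  obtain ⟨ψ, a, b, h0, hab⟩ := h2 (by omega) z
  have h3 := h.cyc_sub (fun e => a (orb nd e)) (fun e => b (orb nl e))
        (fun e => by rw [h.d.orb_f]) (fun e => by rw [h.l.orb_f]) ψ
  have h4 := hz ψ
  have h5 : ∑ e, (ψ (tl (nd e)) - ψ (tl e)) ^ 2 = 0 := by
    rw [← sub_eq_zero.2 (h4.trans h3.symm), ← sum_sub_distrib]
    refine sum_congr rfl fun e _ => ?_
    rw [hab e (mem_univ e)]; ring
  rw [sum_eq_zero_iff_of_nonneg (fun _ _ => sq_nonneg _)] at h5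
  refine ⟨fun e => a (orb nd e), fun e => b (orb nl e), fun e => by simp only [h.d.orb_f],
    fun e => by simp only [h.l.orb_f], h0 _ (by simp), fun e => ?_⟩
  rw [hab e (mem_univ e), pow_eq_zero_iff (by norm_num) |>.1 (h5 e (mem_univ e)), zero_add]

/-- The spherical case. -/
structure Sph (nd nl : E → E) (tl : E → V) : Prop extends Pre nd nl tl where
  eul : 3 * (univ.image tl).card = Fintype.card E + 6

theorem Sph.swap (h : Sph nd nl tl) : Sph nl nd tl := ⟨h.toPre.swap, h.eul⟩

theorem Sph.exact (h : Sph nd nl tl) (e0 : E) {z : E → ℝ} (hz : Cyc nd tl z) :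
    ∃ a b : E → ℝ, (∀ e, a (nd e) = a e) ∧ (∀ e, b (nl e) = b e) ∧ a e0 = 0 ∧
      ∀ e, z e = a e - b e := (h.global e0).2 h.eul z hz

theorem Sph.small (h : Sph nd nl tl) {z : E → ℝ} (hz : Cyc nd tl z) (S : Finset E)
    (hS : S.card ≤ 2) (h0 : ∀ e ∉ S, z e = 0) (e : E) : z e = 0 := by
  obtain ⟨a, b, ha, hb, -, hab⟩ := h.exact e hz
  obtain ⟨-, h2⟩ := h.level a b ha hb S hS (fun x hx => sub_eq_zero.1 (hab x ▸ h0 x hx)) e
  rw [hab, h2, sub_self]

theorem Sph.loopless (h : Sph nd nl tl) (e : E) : tl (nd e) ≠ tl e := by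
  intro he
  have := h.small (z := fun x => if x = e then 1 else 0) (fun ψ => by simp [he]) {e} (by simp)
    (fun x hx => by simp at hx; simp [hx]) e
  simp at this

theorem Sph.loopless2 (h : Sph nd nl tl) (e : E) : tl (nd (nd e)) ≠ tl e := by
  have := h.loopless (nd (nd e))
  rw [h.d.c3] at this; exact this.symm

end Vale.Agent.P039
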