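import Vale.Agent.P039.Pair

namespace Vale.Agent.P039
open Finset

variable {E V : Type*} [Fintype E] [DecidableEq E] [DecidableEq V]
variable {nd nl : E → E} {tl : E → V} {e0 : E}

theorem Sph.mix_state (h : Sph nd nl tl) {p : Inn nd e0 → E} (hp : State nd tl e0 p)
    (ε : Inn nd e0 → Bool) (F : Finset (Inn nd e0)) :
    State nd tl e0 (fun i => if i ∈ F then nx nd (p i) (ε i) else p i) ↔
      F ∈ Valid (fun i => tl (p i)) (fun i => tl (nx nd (p i) (ε i))) := by
  constructor
  · intro hs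
    rw [mem_valid]
    apply eq_of_subset_of_card_le
    · intro v hv
      obtain ⟨i, hi, rfl⟩ := mem_image.1 hv
      have h1 := hs.nr i
      simp only [hi, if_true] at h1
      obtain ⟨j, hj⟩ := hp.surj h _ h1
      refine mem_image.2 ⟨j, ?_, hj⟩
      by_contra hjF
      have : j = i := hs.inj (by simp only [hi, hjF, if_true, if_false]; exact hj)
      exact hjF (this ▸ hi)
    · rw [card_image_of_injective _ hp.inj, card_image_of_injOn]
      intro i hi j hj hij
      exact hs.inj (by simp only [mem_coe.1 hi, mem_coe.1 hj, if_true]; exact hij)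
  · intro hF
    refine ⟨fun i => ?_, fun i j hij => ?_, fun i => ?_⟩
    · split_ifs
      · rw [orb_nx h.d, hp.orb_eq]
      · exact hp.orb_eq i
    · by_cases hi : i ∈ F <;> by_cases hj : j ∈ F <;>
        simp only [hi, hj, if_true, if_false] at hij
      · exact valid_injOn hp.inj hF hi hj hij
      · obtain ⟨k, hk, hki⟩ := valid_succ hF hi
        exact absurd (hp.inj (hki.trans hij) ▸ hk) hj
      · obtain ⟨k, hk, hki⟩ := valid_succ hF hj
        exact absurd (hp.inj (hki.trans hij.symm) ▸ hk) hi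
      · exact hp.inj hij
    · split_ifs with hi
      · obtain ⟨k, -, hki⟩ := valid_succ hF hi
        exact hki ▸ hp.nr k
      · exact hp.nr i

theorem Pre.exists_beta (h : Pre nd nl tl) (e0 : E) : ∃ β : E → ℝ,
    (∀ e, orb nd e ≠ orb nd e0 → β e + β (nd e) + β (nd (nd e)) = 0) ∧
      ∀ e, β e + β (nl e) + β (nl (nl e)) = 1 := by
  obtain ⟨z, hz⟩ := gram_solve (faceMap nd nl ((univ.image (orb nd)).erase (orb nd e0))
    (univ.image (orb nl)) univ) (faceMap_inj _ _ _ (fun a b h0 h0' hab => by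
      obtain ⟨h3, h4⟩ := h.level (fun e => a (orb nd e)) (fun e => b (orb nl e))
        (fun e => by rw [h.d.orb_f]) (fun e => by rw [h.l.orb_f]) ∅ (by simp)
        (fun e _ => hab e (mem_univ e)) e0
      have h5 : a (orb nd e0) = 0 := h0 _ (by simp)
      constructor
      · intro t
        by_cases ht : t ∈ univ.image (orb nd)
        · obtain ⟨e, -, rfl⟩ := mem_image.1 ht
          rw [h3 e, h5]
        · exact h0 t fun hh => ht (mem_of_mem_erase hh)
      · intro t
        by_cases ht : t ∈ univ.image (orb nl)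
        · obtain ⟨e, -, rfl⟩ := mem_image.1 ht
          rw [h4 e, h5]
        · exact h0' t ht)) (Sum.elim (fun _ => 0) (fun _ => -1))
  have hsum : ∀ f : E → E, Ord3 f → ∀ e, ∑ x : (univ : Finset E),
      z x * (if orb f x = orb f e then 1 else 0) =
      z ⟨e, mem_univ _⟩ + z ⟨f e, mem_univ _⟩ + z ⟨f (f e), mem_univ _⟩ := by
    intro f hf e
    have h1 := sum_coe_sort (univ : Finset E)
      (fun x => z ⟨x, mem_univ _⟩ * (if orb f x = orb f e then 1 else 0))
    rw [show (∑ x : (univ : Finset E), z x * (if orb f x = orb f e then 1 else 0)) = _ from h1]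
    simp only [← hf.mem_orb, mul_ite, mul_one, mul_zero]
    rw [sum_ite_mem, univ_inter, orb, sum_insert, sum_pair (hf.n1 _).symm, add_assoc]
    simp [(hf.n1 e).symm, (hf.n2 e).symm]
  refine ⟨fun e => z ⟨e, mem_univ _⟩, fun e he => ?_, fun e => ?_⟩
  · have h1 := hz (Sum.inl (idx nd e0 e he))
    rw [← hsum nd h.d e]
    rw [Sum.elim_inl] at h1
    refine Eq.trans ?_ h1
    refine sum_congr rfl fun x _ => ?_
    congr 1
    simp only [faceMap, ext0, LinearMap.coe_mk, AddHom.coe_mk, Pi.single_apply, idx]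
    simp only [Sum.inl.injEq, Subtype.mk.injEq, reduceCtorEq, if_false, dite_eq_ite, ite_self,
      sub_zero]
    split_ifs with a1 a2 a2
    · rfl
    · exact absurd (a1 ▸ mem_erase.2 ⟨he, mem_image_of_mem _ (mem_univ _)⟩) a2
    · rfl
    · rfl
  · have h1 := hz (Sum.inr ⟨orb nl e, mem_image_of_mem _ (mem_univ _)⟩)
    rw [← hsum nl h.l e]
    rw [Sum.elim_inr] at h1
    rw [← neg_inj, ← h1, ← sum_neg_distrib]
    refine sum_congr rfl fun x _ => ?_
    rw [← mul_neg]
    congr 1
    simp only [faceMap, ext0, LinearMap.coe_mk, AddHom.coe_mk, Pi.single_apply]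
    simp only [Sum.inr.injEq, Subtype.mk.injEq, reduceCtorEq, if_false, dite_eq_ite, ite_self,
      zero_sub]
    rw [if_pos (mem_image_of_mem _ (mem_univ _))]

omit [Fintype E] in
theorem three_sum [Fintype E] {f : E → E} (h : Ord3 f) {A : Finset E} (hA : Inv f A) (β : E → ℝ) :
    3 * ∑ e ∈ A, β e = ∑ e ∈ A, (β e + β (f e) + β (f (f e))) := by
  rw [sum_add_distrib, sum_add_distrib, h.sum_inv hA (fun e => β (f e)), h.sum_inv hA β]; ring

/-- Rotation number and height change of a cycle have matching signs. -/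
theorem Sph.exists_alpha (h : Sph nd nl tl) (e0 : E) : ∃ α : E → ℝ,
    ∀ (p : Inn nd e0 → E) (ε : Inn nd e0 → Bool), State nd tl e0 p →
      ∀ O ∈ atoms (Valid (fun i => tl (p i)) (fun i => tl (nx nd (p i) (ε i)))),
      ∃ c b : ℝ, (c = 1 ∨ c = -1) ∧ 0 < b ∧ ∑ i ∈ O, sg (ε i) = 3 * c ∧
        ∑ i ∈ O, (α (nx nd (p i) (ε i)) - α (p i)) = c * b := by
  obtain ⟨β, hβ1, hβ2⟩ := h.exists_beta e0
  refine ⟨fun e => (β (nd (nd e)) - β e) / 3, fun p ε hp O hO => ?_⟩
  obtain ⟨A, B, σ, hA, hB, h0, hσ, hall, hc⟩ := h.disk hp hO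
  have hσ2 : σ * σ = 1 := by rcases hσ with rfl | rfl <;> norm_num
  have hdot : ∀ g : E → ℝ, ∑ e ∈ A, g e - ∑ e ∈ B, g e =
      σ * ∑ i ∈ O, sg (ε i) * g (ed nd (p i) (ε i)) := by
    intro g
    rw [← zc_dot, mul_sum]
    simp only [← mul_assoc, ← hall, sub_mul, sum_sub_distrib, ite_mul, one_mul, zero_mul,
      sum_ite_mem, univ_inter]
  refine ⟨-σ, B.card / 3, by rcases hσ with rfl | rfl <;> norm_num, ?_, ?_, ?_⟩
  · rw [hc]; positivity
  · have := hdot fun _ => 1
    simp only [sum_const, nsmul_eq_mul, mul_one, hc] at this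
    push_cast at this
    linear_combination (-σ) * this - (∑ i ∈ O, sg (ε i)) * hσ2
  · have h1 := hdot β
    have h2 := three_sum h.d hA β
    have h3 := three_sum h.l hB β
    rw [sum_eq_zero fun e he => hβ1 e fun hh => h0 (hA.mem_of_orb he hh.symm)] at h2
    simp only [hβ2, sum_const, nsmul_eq_mul, mul_one] at h3
    have h4 : ∑ i ∈ O, ((β (nd (nd (nx nd (p i) (ε i)))) - β (nx nd (p i) (ε i))) / 3 -
        (β (nd (nd (p i))) - β (p i)) / 3) = ∑ i ∈ O, sg (ε i) * β (ed nd (p i) (ε i)) := by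
      refine sum_congr rfl fun i _ => ?_
      have := hβ1 (p i) (by rw [hp.orb_eq]; exact Inn.ne i)
      cases ε i <;> simp only [nx, ed, sg, h.d.c3, Bool.false_eq_true, if_false, if_true] <;>
        linarith
    rw [h4]
    linear_combination (-σ) * h1 - (∑ i ∈ O, sg (ε i) * β (ed nd (p i) (ε i))) * hσ2 +
      σ / 3 * h2 - σ / 3 * h3

end Vale.Agent.P039
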