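import Vale.Agent.P039.Basic

namespace Vale.Agent.P039
open Finset

section valid
variable {I V : Type*} [Fintype I] [DecidableEq I] [DecidableEq V]

/-- Sets of indices forming unions of directed cycles. -/
def Valid (P Q : I → V) : Finset (Finset I) := univ.filter fun F => F.image Q = F.image P

theorem mem_valid {P Q : I → V} {F : Finset I} : F ∈ Valid P Q ↔ F.image Q = F.image P := by
  simp [Valid]

theorem valid_symm {P Q : I → V} {F : Finset I} (h : F ∈ Valid P Q) : F ∈ Valid Q P :=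
  mem_valid.2 (mem_valid.1 h).symm

theorem valid_injOn {P Q : I → V} (hP : Function.Injective P) {F : Finset I}
    (h : F ∈ Valid P Q) : Set.InjOn Q F := by
  rw [← card_image_iff, mem_valid.1 h, card_image_of_injective _ hP]

theorem valid_succ {P Q : I → V} {F : Finset I} (h : F ∈ Valid P Q) {i : I} (hi : i ∈ F) :
    ∃ j ∈ F, P j = Q i := mem_image.1 (mem_valid.1 h ▸ mem_image_of_mem Q hi)

theorem valid_pred {P Q : I → V} {F : Finset I} (h : F ∈ Valid P Q) {j : I} (hj : j ∈ F) :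
    ∃ i ∈ F, Q i = P j := mem_image.1 ((mem_valid.1 h).symm ▸ mem_image_of_mem P hj)

theorem valid_of {P Q : I → V} {F : Finset I} (h1 : ∀ i ∈ F, ∃ j ∈ F, P j = Q i)
    (h2 : ∀ j ∈ F, ∃ i ∈ F, Q i = P j) : F ∈ Valid P Q := by
  rw [mem_valid]
  ext v
  simp only [mem_image]
  constructor
  · rintro ⟨i, hi, rfl⟩; exact h1 i hi
  · rintro ⟨i, hi, rfl⟩; exact h2 i hi

theorem valid_of_pred {P Q : I → V} (hP : Function.Injective P) {F : Finset I}
    (h2 : ∀ j ∈ F, ∃ i ∈ F, Q i = P j) : F ∈ Valid P Q := by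
  rw [mem_valid]
  symm
  apply eq_of_subset_of_card_le
  · intro v hv
    obtain ⟨j, hj, rfl⟩ := mem_image.1 hv
    exact mem_image.2 (h2 j hj)
  · rw [card_image_of_injective _ hP]; exact card_image_le

theorem valid_fam {P Q : I → V} (hP : Function.Injective P) : Fam (Valid P Q) := by
  have hu : ∀ F ∈ Valid P Q, ∀ G ∈ Valid P Q, F ∪ G ∈ Valid P Q := by
    intro F hF G hG
    rw [mem_valid] at *
    rw [image_union, image_union, hF, hG]
  refine ⟨by simp [mem_valid], hu, fun F hF G hG => valid_of_pred hP fun j hj => ?_⟩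
  obtain ⟨hjF, hjG⟩ := mem_sdiff.1 hj
  obtain ⟨i, hi, hij⟩ := valid_pred hF hjF
  refine ⟨i, mem_sdiff.2 ⟨hi, fun hiG => ?_⟩, hij⟩
  obtain ⟨k, hk, hki⟩ := valid_succ hG hiG
  exact hjG (hP (hki.trans hij) ▸ hk)

theorem valid_sum {P Q : I → V} (hP : Function.Injective P) {F : Finset I}
    (h : F ∈ Valid P Q) (ψ : V → ℝ) : ∑ i ∈ F, ψ (Q i) = ∑ i ∈ F, ψ (P i) := by
  rw [← sum_image (valid_injOn hP h), ← sum_image (hP.injOn (s := (F : Set I))), mem_valid.1 h]

end valid

variable {E V : Type*} [Fintype E] [DecidableEq E] [DecidableEq V]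

/-- Inner dark faces. -/
abbrev Inn (nd : E → E) (e0 : E) := {t : Finset E // t ∈ (univ.image (orb nd)).erase (orb nd e0)}

/-- The three root vertices. -/
def roots (nd : E → E) (tl : E → V) (e0 : E) : Finset V := (orb nd e0).image tl

/-- A state: a corner in each inner dark face, at distinct non-root vertices. -/
structure State (nd : E → E) (tl : E → V) (e0 : E) (p : Inn nd e0 → E) : Prop where
  orb_eq : ∀ i, orb nd (p i) = i.1
  inj : Function.Injective fun i => tl (p i)
  nr : ∀ i, tl (p i) ∉ roots nd tl e0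

/-- Target corner. -/
def nx (nd : E → E) (e : E) (b : Bool) : E := if b then nd e else nd (nd e)
/-- Edge used. -/
def ed (nd : E → E) (e : E) (b : Bool) : E := if b then e else nd (nd e)
/-- Sign. -/
def sg (b : Bool) : ℝ := if b then 1 else -1

theorem sg_sq (b : Bool) : sg b * sg b = 1 := by cases b <;> simp [sg]

variable {nd nl : E → E} {tl : E → V} {e0 : E}

omit [Fintype E] [DecidableEq E] [DecidableEq V] in
theorem sg_d (h : Ord3 nd) (ψ : V → ℝ) (e : E) (b : Bool) :
    sg b * (ψ (tl (nd (ed nd e b))) - ψ (tl (ed nd e b))) = ψ (tl (nx nd e b)) - ψ (tl e) := by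
  cases b <;> simp [sg, ed, nx, h.c3]

omit [Fintype E] in
theorem orb_ed (h : Ord3 nd) (e : E) (b : Bool) : orb nd (ed nd e b) = orb nd e := by
  cases b <;> simp [ed, h.orb_f]

omit [Fintype E] in
theorem orb_nx (h : Ord3 nd) (e : E) (b : Bool) : orb nd (nx nd e b) = orb nd e := by
  cases b <;> simp [nx, h.orb_f]

theorem card_inn (h : Ord3 nd) (e0 : E) : 3 * (Fintype.card (Inn nd e0) + 1) = Fintype.card E := by
  rw [Fintype.card_coe, card_erase_add_one (mem_image_of_mem (orb nd) (mem_univ e0)),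
    ← h.card_image (inv_univ nd), card_univ]

theorem Sph.card_roots (h : Sph nd nl tl) (e0 : E) : (roots nd tl e0).card = 3 := by
  rw [roots, orb, image_insert, image_insert, image_singleton, card_eq_three]
  exact ⟨_, _, _, (h.loopless e0).symm, (h.loopless2 e0).symm, (h.loopless _).symm, rfl⟩

theorem roots_sub (e0 : E) : roots nd tl e0 ⊆ univ.image tl := image_subset_image (subset_univ _)

theorem Sph.card_nonroots (h : Sph nd nl tl) (e0 : E) :
    (univ.image tl \ roots nd tl e0).card = Fintype.card (Inn nd e0) := by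
  have h1 := card_sdiff_add_card_eq_card (roots_sub (nd := nd) (tl := tl) e0)
  have h2 := h.card_roots e0
  have h3 := card_inn h.d e0
  have h4 := h.eul
  omega

theorem Sph.image_eq (h : Sph nd nl tl) (P : Inn nd e0 → E)
    (hi : Function.Injective fun i => tl (P i)) (hn : ∀ i, tl (P i) ∉ roots nd tl e0) :
    univ.image (fun i => tl (P i)) = univ.image tl \ roots nd tl e0 := by
  apply eq_of_subset_of_card_le
  · intro v hv
    obtain ⟨i, -, rfl⟩ := mem_image.1 hv
    exact mem_sdiff.2 ⟨mem_image_of_mem _ (mem_univ _), hn i⟩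
  · rw [h.card_nonroots, card_image_of_injective _ hi, card_univ]

theorem State.surj (h : Sph nd nl tl) {p : Inn nd e0 → E} (hp : State nd tl e0 p) (e : E)
    (he : tl e ∉ roots nd tl e0) : ∃ i, tl (p i) = tl e := by
  have : tl e ∈ univ.image (fun i => tl (p i)) := by
    rw [h.image_eq p hp.inj hp.nr]; exact mem_sdiff.2 ⟨mem_image_of_mem _ (mem_univ _), he⟩
  simpa using this

/-- Index of an inner edge. -/
def idx (nd : E → E) (e0 e : E) (he : orb nd e ≠ orb nd e0) : Inn nd e0 :=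
  ⟨orb nd e, mem_erase.2 ⟨he, mem_image_of_mem _ (mem_univ _)⟩⟩

theorem Inn.ne (i : Inn nd e0) : i.1 ≠ orb nd e0 := (mem_erase.1 i.2).1

theorem State.ed_inj (h : Ord3 nd) {p : Inn nd e0 → E} (hp : State nd tl e0 p)
    (ε : Inn nd e0 → Bool) : Function.Injective fun i => ed nd (p i) (ε i) := by
  intro i j hij
  apply Subtype.ext
  rw [← hp.orb_eq, ← hp.orb_eq, ← orb_ed h (p i) (ε i), ← orb_ed h (p j) (ε j)]
  exact congrArg _ hij

theorem sum_supp {I : Type*} (d : I → E) (hd : Function.Injective d) (O : Finset I) (g : E → ℝ)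
    (hg : ∀ e, (∀ i ∈ O, e ≠ d i) → g e = 0) : ∑ e, g e = ∑ i ∈ O, g (d i) := by
  rw [← sum_image (hd.injOn (s := (O : Set I)))]
  symm
  refine sum_subset (subset_univ _) fun e _ he => hg e fun i hi hei => he ?_
  exact mem_image.2 ⟨i, hi, hei.symm⟩

/-- The chain of a set of directed edges. -/
noncomputable def zc (nd : E → E) {I : Type*} (p : I → E) (ε : I → Bool) (O : Finset I) (e : E) :
    ℝ := ∑ i ∈ O, if e = ed nd (p i) (ε i) then sg (ε i) else 0

omit [Fintype E] in
theorem zc_off {I : Type*} (p : I → E) (ε : I → Bool) (O : Finset I) (e : E)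
    (he : ∀ i ∈ O, e ≠ ed nd (p i) (ε i)) : zc nd p ε O e = 0 :=
  sum_eq_zero fun i hi => if_neg (he i hi)

omit [Fintype E] in
theorem zc_on {I : Type*} (p : I → E) (ε : I → Bool)
    (hd : Function.Injective fun i => ed nd (p i) (ε i)) (O : Finset I) {i : I} (hi : i ∈ O) :
    zc nd p ε O (ed nd (p i) (ε i)) = sg (ε i) := by
  rw [zc, sum_eq_single_of_mem i hi, if_pos rfl]
  intro j _ hji
  exact if_neg fun hh => hji (hd hh).symm

theorem zc_dot {I : Type*} (p : I → E) (ε : I → Bool) (O : Finset I) (g : E → ℝ) :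
    ∑ e, zc nd p ε O e * g e = ∑ i ∈ O, sg (ε i) * g (ed nd (p i) (ε i)) := by
  simp only [zc, sum_mul]
  rw [sum_comm]
  refine sum_congr rfl fun i _ => ?_
  simp

section
variable {p : Inn nd e0 → E} {ε : Inn nd e0 → Bool}

theorem zc_cyc (h : Ord3 nd) (hp : State nd tl e0 p) {O : Finset (Inn nd e0)}
    (hO : O ∈ Valid (fun i => tl (p i)) (fun i => tl (nx nd (p i) (ε i)))) :
    Cyc nd tl (zc nd p ε O) := by
  intro ψ
  rw [zc_dot]
  simp only [sg_d h, sum_sub_distrib]
  rw [valid_sum hp.inj hO ψ, sub_self]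

theorem key_id (h : Ord3 nd) (hp : State nd tl e0 p) {O : Finset (Inn nd e0)} {y : E → ℝ}
    (hy : Cyc nd tl y) (h0 : ∀ e, (∀ i ∈ O, e ≠ ed nd (p i) (ε i)) → e ∉ orb nd e0 → y e = 0)
    {j : Inn nd e0} (hj : j ∈ O) :
    ∑ i ∈ O, (if tl (nx nd (p i) (ε i)) = tl (p j) then y (ed nd (p i) (ε i)) * sg (ε i) else 0) =
      y (ed nd (p j) (ε j)) * sg (ε j) := by
  have h1 := hy (fun v => if v = tl (p j) then 1 else 0)
  rw [sum_supp _ (hp.ed_inj h ε) O] at h1
  · have h2 : ∀ i ∈ O, y (ed nd (p i) (ε i)) *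
        ((if tl (nd (ed nd (p i) (ε i))) = tl (p j) then (1 : ℝ) else 0) -
          (if tl (ed nd (p i) (ε i)) = tl (p j) then 1 else 0)) =
        (if tl (nx nd (p i) (ε i)) = tl (p j) then y (ed nd (p i) (ε i)) * sg (ε i) else 0) -
          (if i = j then y (ed nd (p i) (ε i)) * sg (ε i) else 0) := by
      intro i _
      have h3 := sg_d (tl := tl) h (fun v => if v = tl (p j) then 1 else 0) (p i) (ε i)
      have h4 : (tl (p i) = tl (p j)) ↔ i = j := ⟨fun hh => hp.inj hh, fun hh => by rw [hh]⟩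
      simp only [h4] at h3
      have h5 := sg_sq (ε i)
      calc _ = y (ed nd (p i) (ε i)) * sg (ε i) * (sg (ε i) *
        ((if tl (nd (ed nd (p i) (ε i))) = tl (p j) then (1 : ℝ) else 0) -
          (if tl (ed nd (p i) (ε i)) = tl (p j) then 1 else 0))) := by
            rw [mul_assoc, ← mul_assoc (sg _), h5, one_mul]
        _ = _ := by rw [h3]; split_ifs <;> ring
    rw [sum_congr rfl h2, sum_sub_distrib, sum_ite_eq' O j, if_pos hj] at h1
    exact sub_eq_zero.1 h1
  · intro e he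
    by_cases ho : e ∈ orb nd e0
    · have h2 : tl e ≠ tl (p j) := fun hh => hp.nr j (hh ▸ mem_image_of_mem _ ho)
      have h3 : tl (nd e) ≠ tl (p j) := fun hh => hp.nr j (hh ▸ mem_image_of_mem _
        (h.mem_orb.2 (by rw [h.orb_f]; exact h.mem_orb.1 ho)))
      simp [h2, h3]
    · rw [h0 e he ho, zero_mul]

theorem Sph.acyc (h : Sph nd nl tl) (hp : State nd tl e0 p)
    (hn : ∀ F ∈ Valid (fun i => tl (p i)) (fun i => tl (nx nd (p i) (ε i))), F = ∅)
    {y : E → ℝ} (hy : Cyc nd tl y) (S : Finset E) (hS : S ⊆ orb nd e0) (hS2 : S.card ≤ 2)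
    (h0 : ∀ e, (∀ i, e ≠ ed nd (p i) (ε i)) → e ∉ S → y e = 0) (e : E) : y e = 0 := by
  have hO := hn (univ.filter fun i => y (ed nd (p i) (ε i)) ≠ 0) (valid_of_pred hp.inj
    fun j hj => by
      have hj' := (mem_filter.1 hj).2
      have h1 := key_id (O := univ) h.d hp hy
        (fun e he ho => h0 e (fun i => he i (mem_univ i)) fun hh => ho (hS hh)) (mem_univ j)
      have h2 : y (ed nd (p j) (ε j)) * sg (ε j) ≠ 0 :=
        mul_ne_zero hj' (by cases ε j <;> simp [sg])
      rw [← h1] at h2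
      obtain ⟨i, -, hi⟩ := exists_ne_zero_of_sum_ne_zero h2
      split_ifs at hi with h3
      · exact ⟨i, mem_filter.2 ⟨mem_univ _, left_ne_zero_of_mul hi⟩, h3⟩
      · exact absurd rfl hi)
  refine h.small hy S hS2 (fun x hx => ?_) e
  by_cases hh : ∀ i, x ≠ ed nd (p i) (ε i)
  · exact h0 x hh hx
  · push Not at hh
    obtain ⟨i, rfl⟩ := hh
    by_contra hne
    have : i ∈ univ.filter fun i => y (ed nd (p i) (ε i)) ≠ 0 := mem_filter.2 ⟨mem_univ _, hne⟩
    rw [hO] at this; simp at this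

theorem atom_const (h : Ord3 nd) (hp : State nd tl e0 p) {O : Finset (Inn nd e0)}
    (hO : O ∈ atoms (Valid (fun i => tl (p i)) (fun i => tl (nx nd (p i) (ε i)))))
    {y : E → ℝ} (hy : Cyc nd tl y) (h0 : ∀ e, (∀ i ∈ O, e ≠ ed nd (p i) (ε i)) → y e = 0)
    {i0 : Inn nd e0} (hi0 : i0 ∈ O) {i : Inn nd e0} (hi : i ∈ O) :
    y (ed nd (p i) (ε i)) * sg (ε i) = y (ed nd (p i0) (ε i0)) * sg (ε i0) := by
  obtain ⟨h1, -, h3⟩ := mem_atoms.1 hO
  have hv : (O.filter fun i => y (ed nd (p i) (ε i)) * sg (ε i) =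
      y (ed nd (p i0) (ε i0)) * sg (ε i0)) ∈ Valid (fun i => tl (p i))
        (fun i => tl (nx nd (p i) (ε i))) := by
    refine valid_of_pred hp.inj fun j hj => ?_
    obtain ⟨hjO, hjv⟩ := mem_filter.1 hj
    obtain ⟨k, hk, hkj⟩ := valid_pred h1 hjO
    refine ⟨k, mem_filter.2 ⟨hk, ?_⟩, hkj⟩
    have h4 := key_id h hp hy (fun e he _ => h0 e he) hjO
    rw [sum_eq_single_of_mem k hk, if_pos hkj] at h4
    · rw [h4, hjv]
    · intro l hl hlk
      exact if_neg fun hh => hlk (valid_injOn hp.inj h1 hl hk (hh.trans hkj.symm))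
  rcases h3 _ hv (filter_subset _ _) with h4 | h4
  · have : i0 ∈ O.filter fun i => y (ed nd (p i) (ε i)) * sg (ε i) =
      y (ed nd (p i0) (ε i0)) * sg (ε i0) := mem_filter.2 ⟨hi0, rfl⟩
    rw [h4] at this; simp at this
  · rw [← h4] at hi; exact (mem_filter.1 hi).2
end

end Vale.Agent.P039
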