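import Vale.Agent.P039.Acyc

namespace Vale.Agent.P039
open Finset

variable {E V : Type*} [Fintype E] [DecidableEq E] [DecidableEq V]
variable {nd nl : E → E} {tl : E → V} {e0 : E}

/-- Each orbit meets the set exactly once. -/
def Mt (f : E → E) (M : Finset E) : Prop := ∀ e, (if e ∈ M then 1 else 0) +
  (if f e ∈ M then 1 else 0) + (if f (f e) ∈ M then 1 else 0) = 1

/-- A perfect matching whose complement is connected. -/
structure Good (nd nl : E → E) (M : Finset E) : Prop where
  md : Mt nd M
  ml : Mt nl M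
  conn : ∀ A B : Finset E, Inv nd A → Inv nl B → (∀ e ∉ M, e ∈ A ↔ e ∈ B) →
    (A = ∅ ∧ B = ∅) ∨ (A = univ ∧ B = univ)

theorem Mt.card {f : E → E} (h : Ord3 f) {M A : Finset E} (hM : Mt f M) (hA : Inv f A) :
    A.card = 3 * (A ∩ M).card := by
  let q : E → ℕ := fun e => if e ∈ M then 1 else 0
  have q1 : ∑ e ∈ A, q e = (A ∩ M).card := by
    rw [← filter_mem_eq_inter]; exact (card_filter _ _).symm
  have q2 := h.sum_inv hA q
  have q3 := h.sum_inv hA (fun e => q (f e))
  have q4 : ∑ e ∈ A, (q e + q (f e) + q (f (f e))) = ∑ e ∈ A, 1 := sum_congr rfl fun e _ => hM e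
  rw [sum_add_distrib, sum_add_distrib, ← card_eq_sum_ones] at q4
  omega

omit [Fintype E] in
theorem mt_of {f : E → E} (h : Ord3 f) {M : Finset E} (h1 : ∀ e, ∃ m ∈ M, orb f m = orb f e)
    (h2 : ∀ m ∈ M, ∀ m' ∈ M, orb f m = orb f m' → m = m') : Mt f M := by
  intro e
  obtain ⟨m, hm, hme⟩ := h1 e
  have a1 : e ∈ M → f e ∉ M := fun x y => h.n1 e (h2 _ y _ x (h.orb_f e))
  have a2 : f e ∈ M → f (f e) ∉ M := fun x y => h.n1 _ (h2 _ y _ x (h.orb_f _))
  have a3 : e ∈ M → f (f e) ∉ M := fun x y => h.n2 _ (h2 _ y _ x (by rw [h.orb_f, h.orb_f]))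
  have a4 : e ∈ M ∨ f e ∈ M ∨ f (f e) ∈ M := by
    have := h.mem_orb.2 hme
    simp only [orb, mem_insert, mem_singleton] at this
    rcases this with rfl | rfl | rfl <;> tauto
  split_ifs <;> tauto

theorem Sph.light_match (h : Sph nd nl tl) {r : Inn nd e0 → E} {χ : Inn nd e0 → Bool}
    (hr : State nd tl e0 r) (hs : State nd tl e0 (fun i => nx nd (r i) (χ i)))
    (hac : ∀ F ∈ Valid (fun i => tl (nx nd (r i) (χ i)))
        (fun i => tl (nx nd (nx nd (r i) (χ i)) (χ i))), F = ∅) :
    ∃ f : Inn nl e0 → Inn nd e0, Function.Injective f ∧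
      ∀ l, orb nl (r (f l)) = l.1 ∨ orb nl (nd (nd (r (f l)))) = l.1 := by
  obtain ⟨f, hf, hft⟩ := (all_card_le_biUnion_card_iff_exists_injective
    (fun l : Inn nl e0 => univ.filter fun i : Inn nd e0 =>
      orb nl (r i) = l.1 ∨ orb nl (nd (nd (r i))) = l.1)).1 (by
    intro S
    set N := S.biUnion fun l : Inn nl e0 => univ.filter fun i : Inn nd e0 =>
      orb nl (r i) = l.1 ∨ orb nl (nd (nd (r i))) = l.1 with hN
    set S' := S.image Subtype.val with hS'
    let g : (S' → ℝ) →ₗ[ℝ] (N → ℝ) :=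
      { toFun := fun x i => ext0 S' x (orb nl (r i)) - ext0 S' x (orb nl (nd (nd (r i))))
        map_add' := by intro x y; ext e; simp only [map_add, Pi.add_apply]; ring
        map_smul' := by
          intro c x; ext e; simp only [map_smul, Pi.smul_apply, smul_eq_mul, RingHom.id_apply]
          ring }
    have hg : Function.Injective g := by
      rw [← LinearMap.ker_eq_bot, LinearMap.ker_eq_bot']
      intro x hx
      have h1 : ∀ i, ext0 S' x (orb nl (r i)) = ext0 S' x (orb nl (nd (nd (r i)))) := by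
        intro i
        by_cases hi : i ∈ N
        · exact sub_eq_zero.1 (congrFun hx ⟨i, hi⟩)
        · rw [ext0_notMem, ext0_notMem]
          · intro hh
            obtain ⟨l, hl, hl'⟩ := mem_image.1 hh
            exact hi (mem_biUnion.2 ⟨l, hl, mem_filter.2 ⟨mem_univ _, Or.inr hl'.symm⟩⟩)
          · intro hh
            obtain ⟨l, hl, hl'⟩ := mem_image.1 hh
            exact hi (mem_biUnion.2 ⟨l, hl, mem_filter.2 ⟨mem_univ _, Or.inl hl'.symm⟩⟩)
      let a : Finset E → ℝ := ext0 _ fun i : Inn nd e0 => ext0 S' x (orb nl (r i))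
      have ha0 : a (orb nd e0) = 0 := ext0_notMem _ _ (by simp)
      have hb0 : ext0 S' x (orb nl e0) = 0 := ext0_notMem _ _ fun hh => by
        obtain ⟨l, -, hl'⟩ := mem_image.1 hh
        exact Inn.ne l hl'
      have hy := h.cyc_sub (fun e => a (orb nd e)) (fun e => ext0 S' x (orb nl e))
        (fun e => by rw [h.d.orb_f]) (fun e => by rw [h.l.orb_f])
      have h2 := h.acyc hs hac hy {nd e0, nd (nd e0)} (by simp [orb])
        card_le_two (fun e he he' => by
          by_cases ho : orb nd e = orb nd e0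
          · have := h.d.mem_orb.2 ho
            simp only [orb, mem_insert, mem_singleton] at this he'
            obtain rfl : e = e0 := by tauto
            simp only [ha0, hb0, sub_self]
          · have h3 := ext0_coe _ (fun i : Inn nd e0 => ext0 S' x (orb nl (r i))) (idx nd e0 e ho)
            have h4 : e ∈ orb nd (r (idx nd e0 e ho)) := h.d.mem_orb.2 (hr.orb_eq (idx nd e0 e ho)).symm
            have h5 := he (idx nd e0 e ho)
            have h6 : ed nd (nx nd (r (idx nd e0 e ho)) (χ (idx nd e0 e ho)))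
                (χ (idx nd e0 e ho)) = nd (r (idx nd e0 e ho)) := by
              cases χ (idx nd e0 e ho) <;> simp [ed, nx, h.d.c3]
            rw [h6] at h5
            simp only [orb, mem_insert, mem_singleton] at h4
            show a (idx nd e0 e ho).1 - _ = 0
            simp only [a]
            rw [h3, sub_eq_zero]
            rcases h4 with h4 | h4 | h4
            · rw [← h4]
            · exact absurd h4 h5
            · rw [h1, ← h4])
      have h3 := (h.level (fun e => a (orb nd e)) (fun e => ext0 S' x (orb nl e))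
        (fun e => by rw [h.d.orb_f]) (fun e => by rw [h.l.orb_f]) ∅ (by simp)
        (fun e _ => sub_eq_zero.1 (h2 e)) e0).2
      ext ⟨t, ht⟩
      obtain ⟨l, -, rfl⟩ := mem_image.1 ht
      obtain ⟨e, he⟩ := Inn.exists_orb l
      have h4 := h3 e
      simp only [ha0, he] at h4
      exact (ext0_coe S' x ⟨_, ht⟩).symm.trans h4
    have := LinearMap.finrank_le_finrank_of_injective hg
    simp only [Module.finrank_fintype_fun_eq_card, Fintype.card_coe] at this
    rwa [hS', card_image_of_injective _ Subtype.val_injective] at this)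
  exact ⟨f, hf, fun l => (mem_filter.1 (hft l)).2⟩

theorem Sph.core (h : Sph nd nl tl) (hb : NoBad nd nl e0) : ∃ M, e0 ∈ M ∧ Good nd nl M := by
  obtain ⟨r, χ, hr, hs, hac⟩ := h.exists_acyc hb
  obtain ⟨f, hf, hfl⟩ := h.light_match hr hs hac
  have hcard : Fintype.card (Inn nl e0) = Fintype.card (Inn nd e0) := by
    have := card_inn h.d e0; have := card_inn h.l e0; omega
  let g := (Equiv.ofBijective f
    ((Fintype.bijective_iff_injective_and_card f).2 ⟨hf, hcard⟩)).symm
  have hfg : ∀ i, f (g i) = i := fun i => (Equiv.ofBijective f _).apply_symm_apply i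
  let ε : Inn nd e0 → Bool := fun i => decide (orb nl (r i) = (g i).1)
  have hml : ∀ i, orb nl (ed nd (r i) (ε i)) = (g i).1 := by
    intro i
    have := hfl (g i)
    rw [hfg] at this
    by_cases hh : orb nl (r i) = (g i).1
    · simp [ε, ed, hh]
    · simp [ε, ed, hh, this.resolve_left hh]
  have hmd : ∀ i, orb nd (ed nd (r i) (ε i)) = i.1 := fun i => by rw [orb_ed h.d, hr.orb_eq]
  set M := insert e0 (univ.image fun i => ed nd (r i) (ε i)) with hM
  have hmem : ∀ e, e ∈ M ↔ e = e0 ∨ ∃ i, ed nd (r i) (ε i) = e := fun e => by simp [hM]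
  have h1 : Mt nd M := by
    refine mt_of h.d (fun e => ?_) fun m hm m' hm' hmm => ?_
    · by_cases ho : orb nd e = orb nd e0
      · exact ⟨e0, (hmem _).2 (Or.inl rfl), ho.symm⟩
      · exact ⟨_, (hmem _).2 (Or.inr ⟨idx nd e0 e ho, rfl⟩), hmd _⟩
    · rcases (hmem _).1 hm with rfl | ⟨i, rfl⟩ <;> rcases (hmem _).1 hm' with rfl | ⟨j, rfl⟩
      · rfl
      · exact absurd (hmd j ▸ hmm.symm) (Inn.ne j)
      · exact absurd (hmd i ▸ hmm) (Inn.ne i)
      · rw [hmd, hmd] at hmm; rw [Subtype.ext hmm]
  have h2 : Mt nl M := by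
    refine mt_of h.l (fun e => ?_) fun m hm m' hm' hmm => ?_
    · by_cases ho : orb nl e = orb nl e0
      · exact ⟨e0, (hmem _).2 (Or.inl rfl), ho.symm⟩
      · refine ⟨_, (hmem _).2 (Or.inr ⟨g.symm (idx nl e0 e ho), rfl⟩), ?_⟩
        rw [hml, Equiv.apply_symm_apply]; rfl
    · rcases (hmem _).1 hm with rfl | ⟨i, rfl⟩ <;> rcases (hmem _).1 hm' with rfl | ⟨j, rfl⟩
      · rfl
      · exact absurd (hml j ▸ hmm.symm) (Inn.ne (g j))
      · exact absurd (hml i ▸ hmm) (Inn.ne (g i))
      · rw [hml, hml] at hmm; rw [g.injective (Subtype.ext hmm)]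
  have hno : ∀ F ∈ Valid (fun i => tl (r i)) (fun i => tl (nx nd (r i) (ε i))), F = ∅ := by
    intro F hF
    by_contra hne
    obtain ⟨i, hi⟩ := nonempty_iff_ne_empty.2 hne
    obtain ⟨O, hO, -⟩ := (valid_fam hr.inj).exists_atom hF hi
    obtain ⟨A, B, σ, hA, hB, -, -, hall, hc⟩ := h.disk hr hO
    have hAB : ∀ e ∉ M, e ∈ A ↔ e ∈ B := by
      intro e he
      have := hall e
      rw [zc_off _ _ _ _ fun i _ hh => he ((hmem _).2 (Or.inr ⟨i, hh.symm⟩)), mul_zero] at this
      revert this
      by_cases a1 : e ∈ A <;> by_cases a2 : e ∈ B <;> simp [a1, a2]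
    have c1 := h1.card h.d hA
    have c2 := h2.card h.l hB
    have c3 := card_sdiff_add_card_inter A M
    have c4 := card_sdiff_add_card_inter B M
    have c5 : A \ M = B \ M := by
      ext e; simp only [mem_sdiff]; exact and_congr_left fun he => hAB e he
    rw [c5] at c3
    omega
  refine ⟨M, (hmem _).2 (Or.inl rfl), h1, h2, fun A B hA hB hAB => ?_⟩
  have hy := h.cyc_sub (fun e => if e ∈ A then 1 else 0) (fun e => if e ∈ B then 1 else 0)
    (fun e => by simp only [hA e]) (fun e => by simp only [hB e])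
  have h3 := h.acyc hr hno hy {e0} (by simp [orb]) (by simp) (fun e he he' => by
    have : e ∉ M := fun hh => by
      rcases (hmem _).1 hh with rfl | ⟨i, rfl⟩
      · simp at he'
      · exact he i rfl
    simp only [hAB e this, sub_self])
  have h4 : A = B := by
    ext e
    have := h3 e
    revert this
    by_cases a1 : e ∈ A <;> by_cases a2 : e ∈ B <;> simp [a1, a2]
  exact h.cut A B hA hB (by simp [h4])

end Vale.Agent.P039
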