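import Mathlib

namespace Vale.Agent.P039

variable {W : Type*}

/-- A rotation system of a simple graph: a permutation of the darts (oriented edges) whose
cycles are exactly the sets of darts leaving a common vertex, that is, a cyclic order of the
edges around each vertex. -/
structure RotationSystem (G : SimpleGraph W) where
  rot : Equiv.Perm G.Dart
  sameCycle_iff : ∀ d d' : G.Dart, rot.SameCycle d d' ↔ d.fst = d'.fst

/-- The face permutation: reverse the dart, then turn to the next dart around its start. -/
def RotationSystem.face {G : SimpleGraph W} (R : RotationSystem G) : Equiv.Perm G.Dart :=
  R.rot * Function.Involutive.toPerm SimpleGraph.Dart.symm SimpleGraph.Dart.symm_involutive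

/-- The number of facial walks: the number of cycles (orbits) of the face permutation. -/
noncomputable def RotationSystem.numFaces {G : SimpleGraph W} (R : RotationSystem G) : ℕ :=
  Nat.card (Quotient (Equiv.Perm.SameCycle.setoid R.face))

/-- Planarity of a finite graph: some rotation system has genus zero on every component, which is
the Euler formula `V - E + F = 2` summed over the components (an isolated vertex has one face
but no dart). -/
def IsPlanar (G : SimpleGraph W) : Prop :=
  ∃ R : RotationSystem G,
    Nat.card W + (R.numFaces + Nat.card {v : W // ∀ w, ¬ G.Adj v w}) =
      Nat.card G.edgeSet + 2 * Nat.card G.ConnectedComponent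

/-- At least four vertices, and deleting at most two vertices leaves a connected graph. -/
def ThreeConnected (G : SimpleGraph W) : Prop :=
  4 ≤ Nat.card W ∧ ∀ S : Finset W, S.card ≤ 2 → (G.induce (↑S : Set W)ᶜ).Connected

end Vale.Agent.P039
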