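import Vale.Agent.P039.Chain

namespace Vale.Agent.P039
open Finset

variable {E V : Type*} [Fintype E] [DecidableEq E] [DecidableEq V]
variable {nd nl : E → E} {tl : E → V} {e0 : E} {p : Inn nd e0 → E} {ε : Inn nd e0 → Bool}

theorem ends_mem (h : Ord3 nd) {O : Finset (Inn nd e0)}
    (hO : O ∈ Valid (fun i => tl (p i)) (fun i => tl (nx nd (p i) (ε i)))) {i : Inn nd e0}
    (hi : i ∈ O) : tl (ed nd (p i) (ε i)) ∈ O.image (fun i => tl (p i)) ∧
      tl (nd (ed nd (p i) (ε i))) ∈ O.image (fun i => tl (p i)) := by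
  have h1 : tl (p i) ∈ O.image (fun i => tl (p i)) := mem_image_of_mem _ hi
  have h2 : tl (nx nd (p i) (ε i)) ∈ O.image (fun i => tl (p i)) :=
    mem_valid.1 hO ▸ mem_image_of_mem (fun i => tl (nx nd (p i) (ε i))) hi
  cases hb : ε i
  · simp only [hb, nx, ed, Bool.false_eq_true, if_false, h.c3] at h2 ⊢; exact ⟨h2, h1⟩
  · simp only [hb, nx, ed, if_true] at h2 ⊢; exact ⟨h1, h2⟩

theorem Pre.side (h : Pre nd nl tl) (hp : State nd tl e0 p) {O : Finset (Inn nd e0)}
    (hO : O ∈ atoms (Valid (fun i => tl (p i)) (fun i => tl (nx nd (p i) (ε i)))))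
    (A B : Finset E) (hA : Inv nd A) (hB : Inv nl B)
    (hoff : ∀ e, (∀ i ∈ O, e ≠ ed nd (p i) (ε i)) → (e ∈ A ↔ e ∈ B))
    (hon : ∀ i ∈ O, ¬ (ed nd (p i) (ε i) ∈ A ↔ ed nd (p i) (ε i) ∈ B)) :
    A.card + B.card + 3 * ((A ∪ B).image tl \ O.image (fun i => tl (p i))).card ≤
      3 * (A ∩ B).card + 3 := by
  obtain ⟨hV, ⟨i0, hi0⟩, -⟩ := mem_atoms.1 hO
  have hcy : ∀ e, e ∉ A ∩ B → e ∈ A ∨ e ∈ B → ∃ i ∈ O, e = ed nd (p i) (ε i) := by
    intro e he he'
    by_contra hn
    push Not at hn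
    have := hoff e hn
    rw [mem_inter] at he; tauto
  have h1 := (h.euler_gen ((A.image (orb nd)).erase (orb nd (ed nd (p i0) (ε i0))))
    ((B.image (orb nl)).erase (orb nl (ed nd (p i0) (ε i0)))) (A ∩ B)
    ((A ∪ B).image tl \ O.image (fun i => tl (p i))) ?_ ?_ ?_).1
  · have c1 := h.d.card_image hA
    have c2 := h.l.card_image hB
    have h2 := hon i0 hi0
    by_cases h3 : ed nd (p i0) (ε i0) ∈ A
    · have h4 : ed nd (p i0) (ε i0) ∉ B := by tauto
      have c3 := card_erase_add_one (hA.orb_mem_image.2 h3)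
      rw [erase_eq_of_notMem (fun hh => h4 (hB.orb_mem_image.1 hh))] at h1
      omega
    · have h4 : ed nd (p i0) (ε i0) ∈ B := by tauto
      have c3 := card_erase_add_one (hB.orb_mem_image.2 h4)
      rw [erase_eq_of_notMem (fun hh => h3 (hA.orb_mem_image.1 hh))] at h1
      omega
  · intro e he
    by_cases h2 : e ∈ A ∨ e ∈ B
    · obtain ⟨i, hi, rfl⟩ := hcy e he h2
      obtain ⟨h3, h4⟩ := ends_mem h.d hV hi
      left
      exact ⟨fun hh => (mem_sdiff.1 hh).2 h3, fun hh => (mem_sdiff.1 hh).2 h4⟩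
    · right
      push Not at h2
      exact ⟨fun hh => h2.1 (hA.orb_mem_image.1 (mem_of_mem_erase hh)),
        fun hh => h2.2 (hB.orb_mem_image.1 (mem_of_mem_erase hh))⟩
  · intro ψ h0 hψ
    have hz : ∀ i ∈ O, ψ (tl (ed nd (p i) (ε i))) = 0 ∧ ψ (tl (nd (ed nd (p i) (ε i)))) = 0 :=
      fun i hi => ⟨h0 _ fun hh => (mem_sdiff.1 hh).2 (ends_mem h.d hV hi).1,
        h0 _ fun hh => (mem_sdiff.1 hh).2 (ends_mem h.d hV hi).2⟩
    have hd : ∀ e, e ∈ A ∨ e ∈ B → ψ (tl (nd e)) = ψ (tl e) := by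
      intro e he
      by_cases h2 : e ∈ A ∩ B
      · exact hψ e h2
      · obtain ⟨i, hi, rfl⟩ := hcy e h2 he
        rw [(hz i hi).1, (hz i hi).2]
    obtain ⟨h3, h4⟩ := h.level (fun e => if e ∈ A then ψ (tl e) else 0)
      (fun e => if e ∈ B then ψ (tl e) else 0)
      (fun e => by
        simp only [hA e]; split_ifs with hh
        · exact hd e (Or.inl hh)
        · rfl)
      (fun e => by
        simp only [hB e, h.hd]; split_ifs with hh
        · exact hd e (Or.inr hh)
        · rfl) ∅ (by simp)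
      (fun e _ => by
        by_cases hh : ∀ i ∈ O, e ≠ ed nd (p i) (ε i)
        · simp only [hoff e hh]
        · push Not at hh
          obtain ⟨i, hi, rfl⟩ := hh
          simp [(hz i hi).1]) (ed nd (p i0) (ε i0))
    simp only [(hz i0 hi0).1, ite_self] at h3 h4
    intro v
    by_cases hv : v ∈ (A ∪ B).image tl
    · obtain ⟨e, he, rfl⟩ := mem_image.1 hv
      rcases mem_union.1 he with he | he
      · simpa [he] using h3 e
      · simpa [he] using h4 e
    · exact h0 v fun hh => hv (mem_sdiff.1 hh).1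
  · intro a b ha hb hab
    have hy := h.cyc_sub (fun e => a (orb nd e)) (fun e => b (orb nl e))
        (fun e => by rw [h.d.orb_f]) (fun e => by rw [h.l.orb_f])
    have ha0 : a (orb nd (ed nd (p i0) (ε i0))) = 0 := ha _ (by simp)
    have hb0 : b (orb nl (ed nd (p i0) (ε i0))) = 0 := hb _ (by simp)
    have hoff' : ∀ e, (∀ i ∈ O, e ≠ ed nd (p i) (ε i)) → a (orb nd e) - b (orb nl e) = 0 := by
      intro e he
      by_cases h2 : e ∈ A
      · exact sub_eq_zero.2 (hab e (mem_inter.2 ⟨h2, (hoff e he).1 h2⟩))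
      · have h3 : e ∉ B := fun hh => h2 ((hoff e he).2 hh)
        rw [ha _ fun hh => h2 (hA.orb_mem_image.1 (mem_of_mem_erase hh)),
          hb _ fun hh => h3 (hB.orb_mem_image.1 (mem_of_mem_erase hh)), sub_self]
    obtain ⟨h3, h4⟩ := h.level (fun e => a (orb nd e)) (fun e => b (orb nl e))
        (fun e => by rw [h.d.orb_f]) (fun e => by rw [h.l.orb_f]) ∅ (by simp)
        (fun e _ => by
          by_cases hh : ∀ i ∈ O, e ≠ ed nd (p i) (ε i)
          · exact sub_eq_zero.1 (hoff' e hh)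
          · push Not at hh
            obtain ⟨i, hi, rfl⟩ := hh
            have h5 := atom_const h.d hp hO hy hoff' hi0 hi
            simp only [ha0, hb0, sub_self, zero_mul] at h5
            exact sub_eq_zero.1 ((mul_eq_zero.1 h5).resolve_right
              (by cases ε i <;> simp [sg]))) (ed nd (p i0) (ε i0))
    simp only [ha0] at h3 h4
    constructor
    · intro t
      by_cases ht : t ∈ A.image (orb nd)
      · obtain ⟨e, -, rfl⟩ := mem_image.1 ht
        exact h3 e
      · exact ha t fun hh => ht (mem_of_mem_erase hh)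
    · intro t
      by_cases ht : t ∈ B.image (orb nl)
      · obtain ⟨e, -, rfl⟩ := mem_image.1 ht
        exact h4 e
      · exact hb t fun hh => ht (mem_of_mem_erase hh)

theorem State.card_inv (h : Ord3 nd) (d : Inn nd e0 → E) (hd : ∀ i, orb nd (d i) = i.1)
    {A : Finset E} (hA : Inv nd A) (h0 : e0 ∉ A) :
    A.card = 3 * (univ.filter fun i => d i ∈ A).card := by
  rw [h.card_image hA]
  congr 1
  symm
  refine card_bij (fun i _ => i.1) ?_ ?_ ?_
  · intro i hi
    rw [← hd]; exact mem_image_of_mem _ (mem_filter.1 hi).2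
  · intro i _ j _ hij; exact Subtype.ext hij
  · intro t ht
    obtain ⟨e, he, rfl⟩ := mem_image.1 ht
    have hne : orb nd e ≠ orb nd e0 := fun hh => h0 (hA.mem_of_orb he hh.symm)
    exact ⟨idx nd e0 e hne, mem_filter.2 ⟨mem_univ _, hA.mem_of_orb he (hd _)⟩, rfl⟩

theorem Sph.count (h : Sph nd nl tl) (hp : State nd tl e0 p) {O : Finset (Inn nd e0)}
    (hO : O ∈ atoms (Valid (fun i => tl (p i)) (fun i => tl (nx nd (p i) (ε i)))))
    (A B : Finset E) (hA : Inv nd A) (hB : Inv nl B) (h0 : e0 ∉ A)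
    (hoff : ∀ e, (∀ i ∈ O, e ≠ ed nd (p i) (ε i)) → (e ∈ A ↔ e ∈ B))
    (hon : ∀ i ∈ O, ¬ (ed nd (p i) (ε i) ∈ A ↔ ed nd (p i) (ε i) ∈ B)) :
    B.card = A.card + 3 := by
  obtain ⟨hV, -, -⟩ := mem_atoms.1 hO
  have s1 := h.side hp hO A B hA hB hoff hon
  have s2 := h.side hp hO Aᶜ Bᶜ hA.compl hB.compl
    (fun e he => by simp [hoff e he]) (fun i hi => by simpa [not_iff_not] using hon i hi)
  set C := O.image (fun i => tl (p i)) with hC
  set X := (A ∪ B).image tl \ C with hX
  set X' := (Aᶜ ∪ Bᶜ).image tl \ C with hX'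
  have cC : C.card = O.card := card_image_of_injective _ hp.inj
  have hCs : C ⊆ univ.image tl := fun v hv => by
    obtain ⟨i, -, rfl⟩ := mem_image.1 hv; exact mem_image_of_mem _ (mem_univ _)
  have hU : X ∪ X' = univ.image tl \ C := by
    rw [hX, hX', ← union_sdiff_distrib, ← image_union]
    congr 2
    ext e; simp only [mem_union, mem_compl, mem_univ, iff_true]; tauto
  have c1 := card_union_add_card_inter X X'
  have c2 := card_sdiff_add_card_eq_card hCs
  rw [hU] at c1
  have hei := hp.ed_inj h.d ε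
  have hAB : A \ B = (O.filter fun i => ed nd (p i) (ε i) ∈ A).image
      fun i => ed nd (p i) (ε i) := by
    ext e
    simp only [mem_sdiff, mem_image, mem_filter]
    constructor
    · rintro ⟨h1, h2⟩
      by_contra hn
      exact h2 ((hoff e fun i hi hh => hn ⟨i, ⟨hi, hh ▸ h1⟩, hh.symm⟩).1 h1)
    · rintro ⟨i, ⟨hi, h1⟩, rfl⟩
      have := hon i hi
      tauto
  have hBA : B \ A = (O.filter fun i => ¬ ed nd (p i) (ε i) ∈ A).image
      fun i => ed nd (p i) (ε i) := by
    ext e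
    simp only [mem_sdiff, mem_image, mem_filter]
    constructor
    · rintro ⟨h1, h2⟩
      by_contra hn
      exact h2 ((hoff e fun i hi hh => hn ⟨i, ⟨hi, hh ▸ h2⟩, hh.symm⟩).2 h1)
    · rintro ⟨i, ⟨hi, h1⟩, rfl⟩
      have := hon i hi
      tauto
  have c3 := card_filter_add_card_filter_not (s := O) (fun i => ed nd (p i) (ε i) ∈ A)
  have c4 := congrArg card hAB
  have c5 := congrArg card hBA
  rw [card_image_of_injective _ hei] at c4 c5
  have c6 := card_sdiff_add_card_inter A B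
  have c7 := card_sdiff_add_card_inter B A
  rw [inter_comm] at c7
  have c8 := card_compl A
  have c9 := card_compl B
  have c10 : (Aᶜ ∩ Bᶜ).card + (A ∪ B).card = Fintype.card E := by
    rw [← compl_union, card_compl]; have := card_le_univ (A ∪ B); omega
  have c11 := card_union_add_card_inter A B
  have c12 := card_le_univ A
  have c13 := card_le_univ B
  have c14 := h.eul
  have hI : X ∩ X' = ∅ := card_eq_zero.1 (by omega)
  have hXA : ∀ e, tl e ∈ X → e ∈ A := by
    intro e he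
    by_contra hn
    have : tl e ∈ X ∩ X' := mem_inter.2 ⟨he, mem_sdiff.2
      ⟨mem_image_of_mem _ (mem_union_left _ (mem_compl.2 hn)), (mem_sdiff.1 he).2⟩⟩
    rw [hI] at this; simp at this
  have c15 := State.card_inv h.d (fun i => ed nd (p i) (ε i))
    (fun i => by rw [orb_ed h.d, hp.orb_eq]) hA h0
  have hedA : ∀ i, ed nd (p i) (ε i) ∈ A ↔ p i ∈ A := fun i =>
    ⟨fun hh => hA.mem_of_orb hh (orb_ed h.d _ _).symm, fun hh => hA.mem_of_orb hh (orb_ed h.d _ _)⟩
  have c16 : ((univ.filter fun i => ed nd (p i) (ε i) ∈ A).filter fun i => ¬ i ∈ O).card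
      = X.card := by
    refine card_bij (fun i _ => tl (p i)) ?_ ?_ ?_
    · intro i hi
      simp only [mem_filter, mem_univ, true_and] at hi
      refine mem_sdiff.2 ⟨mem_image_of_mem _ (mem_union_left _ ((hedA i).1 hi.1)), fun hh => ?_⟩
      obtain ⟨j, hj, hji⟩ := mem_image.1 hh
      exact hi.2 (hp.inj hji ▸ hj)
    · intro i _ j _ hij; exact hp.inj hij
    · intro v hv
      obtain ⟨e, -, rfl⟩ := mem_image.1 (mem_sdiff.1 hv).1
      have hr : tl e ∉ roots nd tl e0 := by
        intro hr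
        obtain ⟨x, hx, hxe⟩ := mem_image.1 hr
        exact h0 (hA.mem_of_orb (hXA x (hxe ▸ hv)) (h.d.mem_orb.1 hx).symm)
      obtain ⟨i, hi⟩ := hp.surj h e hr
      refine ⟨i, ?_, hi⟩
      simp only [mem_filter, mem_univ, true_and]
      exact ⟨(hedA i).2 (hXA _ (hi ▸ hv)),
        fun hh => (mem_sdiff.1 hv).2 (hi ▸ mem_image_of_mem _ hh)⟩
  have c17 := card_filter_add_card_filter_not
    (s := univ.filter fun i => ed nd (p i) (ε i) ∈ A) (fun i => i ∈ O)
  have c18 : ((univ.filter fun i => ed nd (p i) (ε i) ∈ A).filter fun i => i ∈ O) =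
      O.filter fun i => ed nd (p i) (ε i) ∈ A := by
    ext i; simp only [mem_filter, mem_univ, true_and]; tauto
  rw [c18] at c17
  rw [hI, card_empty] at c1
  omega

theorem Sph.disk (h : Sph nd nl tl) (hp : State nd tl e0 p) {O : Finset (Inn nd e0)}
    (hO : O ∈ atoms (Valid (fun i => tl (p i)) (fun i => tl (nx nd (p i) (ε i))))) :
    ∃ (A B : Finset E) (σ : ℝ), Inv nd A ∧ Inv nl B ∧ e0 ∉ A ∧ (σ = 1 ∨ σ = -1) ∧
      (∀ e, (if e ∈ A then (1 : ℝ) else 0) - (if e ∈ B then 1 else 0) = σ * zc nd p ε O e) ∧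
      B.card = A.card + 3 := by
  obtain ⟨hV, ⟨i0, hi0⟩, -⟩ := mem_atoms.1 hO
  have hei := hp.ed_inj h.d ε
  obtain ⟨a, b, ha, hb, ha0, hab⟩ := h.exact e0 (zc_cyc h.d hp hV)
  set A := univ.filter fun e => a e ≠ 0 with hAdef
  set B := univ.filter fun e => b e ≠ 0 with hBdef
  have hA : Inv nd A := fun e => by simp [hAdef, ha]
  have hB : Inv nl B := fun e => by simp [hBdef, hb]
  have h0 : e0 ∉ A := by simp [hAdef, ha0]
  have hoff : ∀ e, (∀ i ∈ O, e ≠ ed nd (p i) (ε i)) → (e ∈ A ↔ e ∈ B) := by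
    intro e he
    have := hab e
    rw [zc_off p ε O e he] at this
    simp [hAdef, hBdef, sub_eq_zero.1 this.symm]
  have hy := h.cyc_sub (fun e => if e ∈ A then 1 else 0) (fun e => if e ∈ B then 1 else 0)
    (fun e => by simp only [hA e]) (fun e => by simp only [hB e])
  have hc := fun i (hi : i ∈ O) => atom_const h.d hp hO hy
    (fun e he => by simp only [hoff e he, sub_self]) hi0 hi
  set σ := ((if ed nd (p i0) (ε i0) ∈ A then (1 : ℝ) else 0) -
    (if ed nd (p i0) (ε i0) ∈ B then 1 else 0)) * sg (ε i0) with hσ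
  have hall : ∀ e, (if e ∈ A then (1 : ℝ) else 0) - (if e ∈ B then 1 else 0) =
      σ * zc nd p ε O e := by
    intro e
    by_cases hh : ∀ i ∈ O, e ≠ ed nd (p i) (ε i)
    · rw [zc_off p ε O e hh]; simp only [hoff e hh, sub_self, mul_zero]
    · push Not at hh
      obtain ⟨i, hi, rfl⟩ := hh
      rw [zc_on p ε hei O hi, ← hc i hi, mul_assoc, sg_sq, mul_one]
  have hσ0 : σ ≠ 0 := by
    intro hs
    obtain ⟨h3, h4⟩ := h.level (fun e => if e ∈ A then 1 else 0) (fun e => if e ∈ B then 1 else 0)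
      (fun e => by simp only [hA e]) (fun e => by simp only [hB e]) ∅ (by simp)
      (fun e _ => by have := hall e; rw [hs, zero_mul] at this; exact sub_eq_zero.1 this) e0
    have h5 := h3 (ed nd (p i0) (ε i0))
    have h6 := h4 (ed nd (p i0) (ε i0))
    have h7 := hab (ed nd (p i0) (ε i0))
    rw [zc_on p ε hei O hi0] at h7
    simp only [h0, if_false, ite_eq_right_iff, one_ne_zero, imp_false] at h5 h6
    simp only [hAdef, hBdef, mem_filter, mem_univ, true_and, not_not] at h5 h6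
    rw [h5, h6] at h7
    revert h7; cases ε i0 <;> simp [sg]
  refine ⟨A, B, σ, hA, hB, h0, ?_, hall, h.count hp hO A B hA hB h0 hoff fun i hi hh => ?_⟩
  · revert hσ0; rw [hσ]
    split_ifs <;> cases ε i0 <;> simp [sg]
  · have := hall (ed nd (p i) (ε i))
    rw [zc_on p ε hei O hi] at this
    simp only [hh, sub_self] at this
    exact mul_ne_zero hσ0 (by cases ε i <;> simp [sg]) this.symm

end Vale.Agent.P039
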