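import Vale.Agent.P039.Disk

namespace Vale.Agent.P039
open Finset

variable {E V : Type*} [Fintype E] [DecidableEq E] [DecidableEq V]
variable {nd nl : E → E} {tl : E → V} {e0 : E}

/-- No nontrivial 3-edge-cut with dark ends on the side away from the outer face. -/
def NoBad (nd nl : E → E) (e0 : E) : Prop :=
  ∀ A B : Finset E, Inv nd A → Inv nl B → e0 ∉ A → B ⊆ A → (A \ B).card = 3 → B = ∅

/-- Number of corners of the dark face in a vertex set. -/
def cnt (nd : E → E) (tl : E → V) (X : Finset V) (e : E) : ℕ :=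
  (if tl e ∈ X then 1 else 0) + (if tl (nd e) ∈ X then 1 else 0) +
    (if tl (nd (nd e)) ∈ X then 1 else 0)

theorem Sph.comp_ineq (h : Sph nd nl tl) (hb : NoBad nd nl e0) (X : Finset V)
    (hX : Disjoint X (roots nd tl e0)) (e1 : E) (he1 : tl e1 ∈ X) :
    ∃ A, Inv nd A ∧ e1 ∈ A ∧ 6 * (X ∩ A.image tl).card ≤ ∑ e ∈ A, min 2 (cnt nd tl X e) := by
  classical
  obtain ⟨⟨A, B⟩, hAB, hmin⟩ := (univ.filter fun AB : Finset E × Finset E =>
    Inv nd AB.1 ∧ Inv nl AB.2 ∧ e1 ∈ AB.1 ∧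
      ∀ e, (tl e ∈ X ∨ tl (nd e) ∈ X) → (e ∈ AB.1 ↔ e ∈ AB.2)).exists_min_image
    (fun AB => AB.1.card + AB.2.card) ⟨(univ, univ), by simp [inv_univ]⟩
  simp only [mem_filter, mem_univ, true_and] at hAB hmin
  obtain ⟨hA, hB, h1, hag⟩ := hAB
  have hm : ∀ a b : E → Prop, (∀ e ∈ A, a (nd e) ↔ a e) → (∀ e ∈ B, b (nl e) ↔ b e) → a e1 →
      (∀ e ∈ A, (tl e ∈ X ∨ tl (nd e) ∈ X) → (a e ↔ b e)) → (∀ e ∈ A, a e) ∧ ∀ e ∈ B, b e := by
    intro a b ha hb' h2 h3
    have h4 := hmin (A.filter a, B.filter b) ⟨fun e => by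
        simp only [mem_filter, hA e]; exact and_congr_right (ha e), fun e => by
        simp only [mem_filter, hB e]; exact and_congr_right (hb' e), mem_filter.2 ⟨h1, h2⟩,
      fun e he => by
        simp only [mem_filter, ← hag e he]; exact and_congr_right fun hh => h3 e hh he⟩
    have c1 := card_filter_le A a
    have c2 := card_filter_le B b
    simp only at h4
    exact ⟨card_filter_eq_iff.1 (by omega), card_filter_eq_iff.1 (by omega)⟩
  have htouch := (hm (fun e => tl e ∈ X ∨ tl (nd e) ∈ X ∨ tl (nd (nd e)) ∈ X)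
    (fun e => tl e ∈ X ∨ tl (nl e) ∈ X ∨ tl (nl (nl e)) ∈ X)
    (fun e _ => by simp only [h.d.c3]; tauto) (fun e _ => by simp only [h.l.c3]; tauto)
    (Or.inl he1) (fun e _ he => by rw [h.hd e]; tauto)).1
  have h0 : e0 ∉ A := by
    intro hh
    rcases htouch e0 hh with h2 | h2 | h2 <;>
      exact Finset.disjoint_left.1 hX h2 (mem_image_of_mem _ (by simp [orb]))
  have hcut : 3 ≤ (A \ B).card + (B \ A).card := by
    by_contra hn
    rcases h.cut A B hA hB (by omega) with h2 | h2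
    · rw [h2.1] at h1; simp at h1
    · rw [h2.1] at h0; simp at h0
  have h1B : e1 ∈ B := (hag e1 (Or.inl he1)).1 h1
  have hnb : ¬ ((B \ A).card = 0 ∧ (A \ B).card = 3) := by
    rintro ⟨h2, h3⟩
    have := hb A B hA hB h0 (sdiff_eq_empty_iff_subset.1 (card_eq_zero.1 h2)) h3
    rw [this] at h1B; simp at h1B
  obtain ⟨e2, he2, he2'⟩ : ∃ e2, (e2 ∈ A ∨ e2 ∈ B) ∧ tl e2 ∉ X := by
    by_cases h2 : (A \ B).card = 0
    · obtain ⟨e, he⟩ := card_pos.1 (show 0 < (B \ A).card by omega)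
      obtain ⟨h3, h4⟩ := mem_sdiff.1 he
      exact ⟨e, Or.inr h3, fun hh => h4 ((hag e (Or.inl hh)).2 h3)⟩
    · obtain ⟨e, he⟩ := card_pos.1 (show 0 < (A \ B).card by omega)
      obtain ⟨h3, h4⟩ := mem_sdiff.1 he
      exact ⟨e, Or.inl h3, fun hh => h4 ((hag e (Or.inl hh)).1 h3)⟩
  have hE := (h.euler_gen ((A.image (orb nd)).erase (orb nd e1)) (B.image (orb nl))
    (A.filter fun e => tl e ∈ X ∨ tl (nd e) ∈ X) (X ∩ A.image tl) ?_ ?_ ?_).1
  · refine ⟨A, hA, h1, ?_⟩
    have c1 := h.d.card_image hA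
    have c2 := h.l.card_image hB
    have c3 := card_erase_add_one (hA.orb_mem_image.2 h1)
    have c4 := card_filter_add_card_filter_not (s := A) (fun e => tl e ∈ X ∨ tl (nd e) ∈ X)
    have c5 := card_filter_add_card_filter_not (s := B) (fun e => tl e ∈ X ∨ tl (nd e) ∈ X)
    have c6 : (B.filter fun e => tl e ∈ X ∨ tl (nd e) ∈ X) =
        A.filter fun e => tl e ∈ X ∨ tl (nd e) ∈ X := by
      ext e; simp only [mem_filter]; exact and_congr_left fun he => (hag e he).symm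
    rw [c6] at c5
    have c7 : (A \ B).card ≤ (A.filter fun e => ¬ (tl e ∈ X ∨ tl (nd e) ∈ X)).card :=
      card_le_card fun e he => mem_filter.2 ⟨(mem_sdiff.1 he).1,
        fun hh => (mem_sdiff.1 he).2 ((hag e hh).1 (mem_sdiff.1 he).1)⟩
    have c8 : (B \ A).card ≤ (B.filter fun e => ¬ (tl e ∈ X ∨ tl (nd e) ∈ X)).card :=
      card_le_card fun e he => mem_filter.2 ⟨(mem_sdiff.1 he).1,
        fun hh => (mem_sdiff.1 he).2 ((hag e hh).2 (mem_sdiff.1 he).1)⟩
    have c9 := card_sdiff_add_card_inter A B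
    have c10 := card_sdiff_add_card_inter B A
    rw [inter_comm] at c10
    let q : E → ℕ := fun e => if ¬ (tl e ∈ X ∨ tl (nd e) ∈ X) then 1 else 0
    have q1 : ∑ e ∈ A, q e = (A.filter fun e => ¬ (tl e ∈ X ∨ tl (nd e) ∈ X)).card :=
      (card_filter _ _).symm
    have q2 := h.d.sum_inv hA q
    have q3 := h.d.sum_inv hA (fun e => q (nd e))
    have q4 : ∑ e ∈ A, (min 2 (cnt nd tl X e) + q e + q (nd e) + q (nd (nd e))) =
        ∑ e ∈ A, 2 := by
      refine sum_congr rfl fun e he => ?_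
      have := htouch e he
      simp only [q, cnt, h.d.c3]
      revert this
      by_cases a1 : tl e ∈ X <;> by_cases a2 : tl (nd e) ∈ X <;>
        by_cases a3 : tl (nd (nd e)) ∈ X <;> simp [a1, a2, a3]
    rw [sum_add_distrib, sum_add_distrib, sum_add_distrib, sum_const, smul_eq_mul] at q4
    omega
  · intro e he
    by_cases h2 : tl e ∈ X ∨ tl (nd e) ∈ X
    · right
      have h3 : e ∉ A := fun hh => he (mem_filter.2 ⟨hh, h2⟩)
      exact ⟨fun hh => h3 (hA.orb_mem_image.1 (mem_of_mem_erase hh)),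
        fun hh => h3 ((hag e h2).2 (hB.orb_mem_image.1 hh))⟩
    · left
      push Not at h2
      exact ⟨fun hh => h2.1 (mem_inter.1 hh).1, fun hh => h2.2 (mem_inter.1 hh).1⟩
  · intro ψ hψ0 hψ
    have hd : ∀ e, e ∈ A ∨ e ∈ B → ψ (tl (nd e)) = ψ (tl e) := by
      intro e he
      by_cases h2 : tl e ∈ X ∨ tl (nd e) ∈ X
      · exact hψ e (mem_filter.2 ⟨he.elim id (hag e h2).2, h2⟩)
      · push Not at h2
        rw [hψ0 _ fun hh => h2.1 (mem_inter.1 hh).1, hψ0 _ fun hh => h2.2 (mem_inter.1 hh).1]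
    obtain ⟨h3, h4⟩ := hm (fun e => ψ (tl e) = ψ (tl e1)) (fun e => ψ (tl e) = ψ (tl e1))
      (fun e he => by rw [hd e (Or.inl he)]) (fun e he => by rw [h.hd, hd e (Or.inr he)]) rfl
      (fun _ _ _ => Iff.rfl)
    have h5 : ψ (tl e1) = 0 := by
      rw [← he2.elim (h3 e2) (h4 e2)]; exact hψ0 _ fun hh => he2' (mem_inter.1 hh).1
    intro v
    by_cases hv : v ∈ X ∩ A.image tl
    · obtain ⟨e, he, rfl⟩ := mem_image.1 (mem_inter.1 hv).2
      rw [h3 e he, h5]
    · exact hψ0 v hv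
  · intro a b ha hb' hab
    obtain ⟨h3, h4⟩ := hm (fun e => a (orb nd e) = 0) (fun e => b (orb nl e) = 0)
      (fun e _ => by rw [h.d.orb_f]) (fun e _ => by rw [h.l.orb_f]) (ha _ (by simp))
      (fun e he he' => by rw [hab e (mem_filter.2 ⟨he, he'⟩)])
    constructor
    · intro t
      by_cases ht : t ∈ A.image (orb nd)
      · obtain ⟨e, he, rfl⟩ := mem_image.1 ht
        exact h3 e he
      · exact ha t fun hh => ht (mem_of_mem_erase hh)
    · intro t
      by_cases ht : t ∈ B.image (orb nl)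
      · obtain ⟨e, he, rfl⟩ := mem_image.1 ht
        exact h4 e he
      · exact hb' t ht

theorem Sph.hall_ineq (h : Sph nd nl tl) (hb : NoBad nd nl e0) (X : Finset V)
    (hX : X ⊆ univ.image tl \ roots nd tl e0) :
    6 * X.card ≤ ∑ e, min 2 (cnt nd tl X e) := by
  induction X using Finset.strongInduction with
  | H X ih =>
    rcases X.eq_empty_or_nonempty with rfl | ⟨v, hv⟩
    · simp
    obtain ⟨e1, -, rfl⟩ := mem_image.1 (mem_sdiff.1 (hX hv)).1
    obtain ⟨A, hA, h1, h2⟩ := h.comp_ineq hb X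
      (Finset.disjoint_left.2 fun v hv => (mem_sdiff.1 (hX hv)).2) e1 hv
    have h3 := ih (X \ A.image tl) (Finset.ssubset_iff_subset_ne.2 ⟨sdiff_subset, fun hh =>
      (mem_sdiff.1 (hh.symm ▸ hv : tl e1 ∈ X \ A.image tl)).2 (mem_image_of_mem _ h1)⟩) (sdiff_subset.trans hX)
    have c1 := card_sdiff_add_card_inter X (A.image tl)
    rw [← sum_add_sum_compl A] at h3 ⊢
    have h4 : ∑ e ∈ A, min 2 (cnt nd tl (X \ A.image tl) e) = 0 := by
      refine sum_eq_zero fun e he => ?_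
      have a1 : tl e ∈ A.image tl := mem_image_of_mem _ he
      have a2 : tl (nd e) ∈ A.image tl := mem_image_of_mem _ ((hA _).2 he)
      have a3 : tl (nd (nd e)) ∈ A.image tl := mem_image_of_mem _ ((hA _).2 ((hA _).2 he))
      simp only [cnt, mem_sdiff, a1, a2, a3]; simp
    have h5 : ∑ e ∈ Aᶜ, min 2 (cnt nd tl (X \ A.image tl) e) ≤ ∑ e ∈ Aᶜ, min 2 (cnt nd tl X e) := by
      refine sum_le_sum fun e _ => min_le_min_left _ ?_
      simp only [cnt, mem_sdiff]
      gcongr <;> split_ifs <;> simp_all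
    omega

/-- Number of dark corners at a vertex. -/
def dg (tl : E → V) (v : V) : ℕ := (univ.filter fun e => tl e = v).card

theorem sum_dg (X : Finset V) : ∑ v ∈ X, dg tl v = (univ.filter fun e => tl e ∈ X).card := by
  rw [card_eq_sum_card_fiberwise (f := tl) (t := X) (s := univ.filter fun e => tl e ∈ X)
    (fun e he => (mem_filter.1 (mem_coe.1 he)).2)]
  refine sum_congr rfl fun v hv => ?_
  rw [dg]; congr 1; ext e
  simp only [mem_filter, mem_univ, true_and]
  exact ⟨fun hh => ⟨hh ▸ hv, hh⟩, fun hh => hh.2⟩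

theorem Sph.hall_ineq' (h : Sph nd nl tl) (hb : NoBad nd nl e0) (X : Finset V)
    (hX : X ⊆ univ.image tl \ roots nd tl e0) :
    6 * X.card + (univ.filter fun e => tl e ∈ X ∧ tl (nd e) ∈ X ∧ tl (nd (nd e)) ∈ X).card ≤
      3 * ∑ v ∈ X, dg tl v := by
  have h1 := h.hall_ineq hb X hX
  let q : E → ℕ := fun e => if tl e ∈ X then 1 else 0
  have q1 : ∑ e, q e = ∑ v ∈ X, dg tl v := by rw [sum_dg]; exact (card_filter _ _).symm
  have q2 := h.d.sum_comp q
  have q3 := h.d.sum_comp (fun e => q (nd e))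
  have q4 : ∑ e, (min 2 (cnt nd tl X e) +
      if tl e ∈ X ∧ tl (nd e) ∈ X ∧ tl (nd (nd e)) ∈ X then 1 else 0) =
      ∑ e, (q e + q (nd e) + q (nd (nd e))) := by
    refine sum_congr rfl fun e _ => ?_
    simp only [q, cnt]
    by_cases a1 : tl e ∈ X <;> by_cases a2 : tl (nd e) ∈ X <;>
        by_cases a3 : tl (nd (nd e)) ∈ X <;> simp [a1, a2, a3]
  rw [sum_add_distrib, sum_add_distrib, sum_add_distrib, ← card_filter] at q4
  omega

end Vale.Agent.P039
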