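import Vale.Agent.P039.Hall

namespace Vale.Agent.P039
open Finset

variable {E V : Type*} [Fintype E] [DecidableEq E] [DecidableEq V]
variable {nd nl : E → E} {tl : E → V} {e0 : E}

theorem Inn.exists_orb (i : Inn nd e0) : ∃ e, orb nd e = i.1 := by
  obtain ⟨e, -, he⟩ := mem_image.1 (mem_of_mem_erase i.2); exact ⟨e, he⟩

theorem Inn.mem (h : Ord3 nd) (i : Inn nd e0) {e : E} : e ∈ i.1 ↔ orb nd e = i.1 := by
  obtain ⟨x, hx⟩ := i.exists_orb
  rw [← hx, h.mem_orb]

/-- Capacity of a vertex. -/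
def cap (nd : E → E) (tl : E → V) (e0 : E) (v : V) : ℕ :=
  if v ∈ roots nd tl e0 then dg tl v - 1 else dg tl v - 2

theorem Sph.cap_nonroot (h : Sph nd nl tl) (hb : NoBad nd nl e0) {v : V}
    (hv : v ∈ univ.image tl \ roots nd tl e0) : cap nd tl e0 v + 2 = dg tl v := by
  have := h.hall_ineq' hb {v} (singleton_subset_iff.2 hv)
  rw [cap, if_neg (mem_sdiff.1 hv).2]
  simp only [card_singleton, sum_singleton] at this
  omega

theorem cap_root {v : V} (hv : v ∈ roots nd tl e0) : cap nd tl e0 v + 1 = dg tl v := by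
  rw [cap, if_pos hv]
  obtain ⟨e, -, he⟩ := mem_image.1 hv
  have : 0 < dg tl v := card_pos.2 ⟨e, by simp [he]⟩
  omega

theorem Sph.exists_apex (h : Sph nd nl tl) (hb : NoBad nd nl e0) :
    ∃ u : Inn nd e0 → E, (∀ i, orb nd (u i) = i.1) ∧ ∀ v ∈ univ.image tl,
      (univ.filter fun i => tl (u i) = v).card = cap nd tl e0 v := by
  have hsr : ∀ Y ⊆ roots nd tl e0, ∑ v ∈ Y, cap nd tl e0 v + Y.card = ∑ v ∈ Y, dg tl v := by
    intro Y hY
    rw [card_eq_sum_ones, ← sum_add_distrib]
    exact sum_congr rfl fun v hv => cap_root (hY hv)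
  have hsn : ∀ Y ⊆ univ.image tl \ roots nd tl e0,
      ∑ v ∈ Y, cap nd tl e0 v + 2 * Y.card = ∑ v ∈ Y, dg tl v := by
    intro Y hY
    rw [card_eq_sum_ones, mul_sum, ← sum_add_distrib]
    exact sum_congr rfl fun v hv => h.cap_nonroot hb (hY hv)
  obtain ⟨f, hf, hft⟩ := (all_card_le_biUnion_card_iff_exists_injective
    (fun i : Inn nd e0 => (i.1.image tl).sigma fun v => range (cap nd tl e0 v))).1 (by
    intro s
    set Y := s.biUnion fun i => i.1.image tl with hY
    have h1 : (s.biUnion fun i : Inn nd e0 => (i.1.image tl).sigma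
        fun v => range (cap nd tl e0 v)) = Y.sigma fun v => range (cap nd tl e0 v) := by
      ext x; simp only [hY, mem_biUnion, mem_sigma]; tauto
    rw [h1, card_sigma]
    simp only [card_range]
    have hYs : Y ⊆ univ.image tl := by
      intro v hv
      obtain ⟨i, -, hi⟩ := mem_biUnion.1 hv
      exact image_subset_image (subset_univ _) hi
    rw [← sum_inter_add_sum_sdiff Y (roots nd tl e0)]
    have c0 := card_filter_add_card_filter_not (s := s)
      (fun i => ∃ e ∈ i.1, tl e ∈ roots nd tl e0)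
    have c1 := hsr (Y ∩ roots nd tl e0) inter_subset_right
    have c2 := hsn (Y \ roots nd tl e0) (sdiff_subset_sdiff hYs Subset.rfl)
    have c3 := h.hall_ineq' hb (Y \ roots nd tl e0) (sdiff_subset_sdiff hYs Subset.rfl)
    have c4 := card_filter_add_card_filter_not
      (s := univ.filter fun e => tl e ∈ Y ∩ roots nd tl e0) (fun e => e ∈ orb nd e0)
    rw [← sum_dg] at c4
    have c5 : (Y ∩ roots nd tl e0).card ≤ ((univ.filter fun e => tl e ∈ Y ∩ roots nd tl e0).filter
        fun e => e ∈ orb nd e0).card := by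
      refine le_trans (card_le_card ?_) (card_image_le (f := tl))
      intro v hv
      obtain ⟨e, he, rfl⟩ := mem_image.1 (mem_inter.1 hv).2
      exact mem_image_of_mem _ (mem_filter.2 ⟨mem_filter.2 ⟨mem_univ _, hv⟩, he⟩)
    have c5' : ((univ.filter fun e => tl e ∈ Y ∩ roots nd tl e0).filter
        fun e => e ∈ orb nd e0).card ≤ (Y ∩ roots nd tl e0).card := by
      refine card_le_card_of_injOn tl (fun e he => (mem_filter.1 (mem_filter.1 he).1).2) ?_
      have : Set.InjOn tl (orb nd e0) := by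
        rw [← card_image_iff, h.d.card_orb]; exact h.card_roots e0
      exact this.mono fun e he => (mem_filter.1 he).2
    have c6 : (s.filter fun i => ∃ e ∈ i.1, tl e ∈ roots nd tl e0).card ≤
        ((univ.filter fun e => tl e ∈ Y ∩ roots nd tl e0).filter
          fun e => ¬ e ∈ orb nd e0).card := by
      rw [← card_image_of_injective _ Subtype.val_injective]
      refine le_trans (card_le_card ?_) (card_image_le (f := orb nd))
      intro t ht
      obtain ⟨i, hi, rfl⟩ := mem_image.1 ht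
      obtain ⟨hi1, e, he, her⟩ := mem_filter.1 hi
      refine mem_image.2 ⟨e, mem_filter.2 ⟨mem_filter.2 ⟨mem_univ _, mem_inter.2
        ⟨mem_biUnion.2 ⟨i, hi1, mem_image_of_mem _ he⟩, her⟩⟩, fun hh => ?_⟩, (Inn.mem h.d i).1 he⟩
      exact Inn.ne i (((Inn.mem h.d i).1 he).symm.trans (h.d.mem_orb.1 hh))
    have c7 := h.d.card_image (A := univ.filter fun e => tl e ∈ Y \ roots nd tl e0 ∧
      tl (nd e) ∈ Y \ roots nd tl e0 ∧ tl (nd (nd e)) ∈ Y \ roots nd tl e0)
      (fun e => by simp only [mem_filter, mem_univ, true_and, h.d.c3]; tauto)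
    have c8 : (s.filter fun i => ¬ ∃ e ∈ i.1, tl e ∈ roots nd tl e0).card ≤
        ((univ.filter fun e => tl e ∈ Y \ roots nd tl e0 ∧
      tl (nd e) ∈ Y \ roots nd tl e0 ∧ tl (nd (nd e)) ∈ Y \ roots nd tl e0).image (orb nd)).card := by
      rw [← card_image_of_injective _ Subtype.val_injective]
      refine card_le_card ?_
      intro t ht
      obtain ⟨i, hi, rfl⟩ := mem_image.1 ht
      obtain ⟨hi1, hi2⟩ := mem_filter.1 hi
      obtain ⟨e, he⟩ := Inn.exists_orb i
      have hm : ∀ x ∈ orb nd e, tl x ∈ Y \ roots nd tl e0 := fun x hx =>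
        mem_sdiff.2 ⟨mem_biUnion.2 ⟨i, hi1, mem_image_of_mem _ (he ▸ hx)⟩,
          fun hh => hi2 ⟨x, he ▸ hx, hh⟩⟩
      exact mem_image.2 ⟨e, mem_filter.2 ⟨mem_univ _, hm _ (by simp [orb]), hm _ (by simp [orb]),
        hm _ (by simp [orb])⟩, he⟩
    omega)
  have hex : ∀ i : Inn nd e0, ∃ e, orb nd e = i.1 ∧ tl e = (f i).1 := by
    intro i
    obtain ⟨e, he, h2⟩ := mem_image.1 (mem_sigma.1 (hft i)).1
    exact ⟨e, (Inn.mem h.d i).1 he, h2⟩
  choose u hu1 hu2 using hex
  refine ⟨u, hu1, ?_⟩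
  have hle : ∀ v ∈ univ.image tl, (univ.filter fun i => tl (u i) = v).card ≤ cap nd tl e0 v := by
    intro v _
    rw [← card_range (cap nd tl e0 v)]
    refine card_le_card_of_injOn (fun i => (f i).2) (fun i hi => ?_) (fun i hi j hj hij => ?_)
    · have h1 := (mem_filter.1 (mem_coe.1 hi)).2
      have h2 := (mem_sigma.1 (hft i)).2
      rw [← hu2, h1] at h2
      exact h2
    · have h1 := (mem_filter.1 (mem_coe.1 hi)).2
      have h2 := (mem_filter.1 (mem_coe.1 hj)).2
      apply hf
      refine Sigma.ext (by rw [← hu2, ← hu2, h1, h2]) (heq_of_eq hij)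
  refine (sum_eq_sum_iff_of_le hle).1 ?_
  rw [← card_eq_sum_card_fiberwise (f := fun i => tl (u i)) (s := univ)
    (fun i _ => mem_coe.2 (mem_image_of_mem _ (mem_univ _))), card_univ]
  have c1 := hsr _ Subset.rfl
  have c2 := hsn _ Subset.rfl
  have c3 := sum_sdiff (f := cap nd tl e0) (roots_sub (nd := nd) (tl := tl) e0)
  have c4 := sum_sdiff (f := dg tl) (roots_sub (nd := nd) (tl := tl) e0)
  have c5 := sum_dg (tl := tl) (univ.image tl)
  rw [filter_true_of_mem (fun e _ => mem_image_of_mem _ (mem_univ e)), card_univ] at c5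
  have c6 := h.card_roots e0
  have c7 := h.card_nonroots e0
  have c8 := card_inn h.d e0
  omega

theorem Sph.exists_pair (h : Sph nd nl tl) (hb : NoBad nd nl e0) :
    ∃ (r : Inn nd e0 → E) (χ : Inn nd e0 → Bool), State nd tl e0 r ∧
      State nd tl e0 (fun i => nx nd (r i) (χ i)) := by
  obtain ⟨u, hu1, hu2⟩ := h.exists_apex hb
  have huinj : Function.Injective u := fun i j hij =>
    Subtype.ext (by rw [← hu1, ← hu1, hij])
  let w : Inn nd e0 × Bool → E := fun x => nx nd (u x.1) x.2
  have hwo : ∀ x, orb nd (w x) = x.1.1 := fun x => by rw [orb_nx h.d, hu1]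
  have hw : Function.Injective w := by
    rintro ⟨i, b⟩ ⟨j, c⟩ hij
    obtain rfl : i = j := Subtype.ext (by rw [← hwo (i, b), hij, hwo])
    have h1 := h.d.n1 (nd (u i))
    cases b <;> cases c
    · rfl
    · exact absurd hij h1
    · exact absurd hij.symm h1
    · rfl
  have hwu : ∀ x j, w x ≠ u j := by
    rintro ⟨i, b⟩ j hij
    obtain rfl : i = j := Subtype.ext (by rw [← hwo (i, b), hij, hu1])
    have h1 := h.d.n1 (u i)
    have h2 := h.d.n2 (u i)
    cases b <;> simp_all [w, nx]
  have hZ : ∀ (v : V) (Z : Finset E), v ∈ univ.image tl → (∀ e ∈ Z, tl e = v) →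
      (∀ e ∈ Z, ∀ j, e ≠ u j) → Z.card + cap nd tl e0 v ≤ dg tl v := by
    intro v Z hv h1 h2
    rw [← hu2 v hv, ← card_image_of_injective _ huinj, ← card_union_of_disjoint]
    · refine card_le_card fun e he => mem_filter.2 ⟨mem_univ _, ?_⟩
      rcases mem_union.1 he with he | he
      · exact h1 e he
      · obtain ⟨i, hi, rfl⟩ := mem_image.1 he; exact (mem_filter.1 hi).2
    · refine Finset.disjoint_left.2 fun e he he' => ?_
      obtain ⟨i, -, rfl⟩ := mem_image.1 he'
      exact h2 _ he i rfl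
  have hnr : ∀ x, tl (w x) ∉ roots nd tl e0 := by
    intro x hx
    obtain ⟨e, he, hxe⟩ := mem_image.1 hx
    have h1 : w x ≠ e := fun hh => x.1.ne (by rw [← hwo, hh]; exact h.d.mem_orb.1 he)
    have := hZ (tl (w x)) {w x, e} (mem_image_of_mem _ (mem_univ _)) (by simp [hxe]) (by
      intro y hy j
      rcases mem_insert.1 hy with rfl | hy
      · exact hwu x j
      · rw [mem_singleton.1 hy]
        exact fun hh => j.ne (by rw [← hu1, ← hh]; exact h.d.mem_orb.1 he))
    rw [card_pair h1] at this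
    have := cap_root hx
    omega
  have h2 : ∀ (v : V) (Z : Finset (Inn nd e0 × Bool)), (∀ x ∈ Z, tl (w x) = v) → Z.card ≤ 2 := by
    intro v Z hZv
    rcases Z.eq_empty_or_nonempty with rfl | ⟨x, hx⟩
    · simp
    have hv : v ∈ univ.image tl \ roots nd tl e0 :=
      hZv x hx ▸ mem_sdiff.2 ⟨mem_image_of_mem _ (mem_univ _), hnr x⟩
    have := hZ v (Z.image w) (mem_sdiff.1 hv).1
      (fun e he => by obtain ⟨y, hy, rfl⟩ := mem_image.1 he; exact hZv y hy)
      (fun e he j => by obtain ⟨y, hy, rfl⟩ := mem_image.1 he; exact hwu y j)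
    rw [card_image_of_injective _ hw] at this
    have := h.cap_nonroot hb hv
    omega
  obtain ⟨f, hf, hft⟩ := (all_card_le_biUnion_card_iff_exists_injective
    (fun i : Inn nd e0 => (univ : Finset Bool).image fun b => tl (w (i, b)))).1 (by
    intro s
    have := card_le_mul_card_image_of_maps_to (f := fun x => tl (w x))
      (s := s ×ˢ (univ : Finset Bool))
      (t := s.biUnion fun i => (univ : Finset Bool).image fun b => tl (w (i, b)))
      (fun x hx => mem_biUnion.2 ⟨x.1, (mem_product.1 hx).1, mem_image_of_mem _ (mem_univ x.2)⟩)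
      2 (fun v _ => h2 v _ fun x hx => (mem_filter.1 hx).2)
    rw [card_product, card_univ, Fintype.card_bool] at this
    omega)
  have hex : ∀ i, ∃ b, tl (w (i, b)) = f i := fun i => by
    obtain ⟨b, -, hb'⟩ := mem_image.1 (hft i); exact ⟨b, hb'⟩
  choose β hβ using hex
  have hr : State nd tl e0 fun i => w (i, β i) :=
    ⟨fun i => hwo _, fun i j hij => hf (by rw [← hβ, ← hβ]; exact hij), fun i => hnr _⟩
  have hs : ∀ i, nx nd (w (i, β i)) (β i) = w (i, !β i) := by
    intro i; cases β i <;> simp [w, nx, h.d.c3]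
  refine ⟨_, β, hr, ?_⟩
  simp only [hs]
  refine ⟨fun i => hwo _, fun i j hij => ?_, fun i => hnr _⟩
  by_contra hne
  obtain ⟨k, hk⟩ := hr.surj h (w (i, !β i)) (hnr _)
  have := h2 (tl (w (i, !β i))) {(i, !β i), (j, !β j), (k, β k)} (by
    intro x hx
    simp only [mem_insert, mem_singleton] at hx
    rcases hx with rfl | rfl | rfl
    · rfl
    · exact hij.symm
    · exact hk)
  rw [card_eq_three.2 ⟨_, _, _, ?_, ?_, ?_, rfl⟩] at this
  · omega
  · exact fun hh => hne (Prod.ext_iff.1 hh).1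
  · intro hh
    obtain ⟨rfl, h3⟩ := Prod.ext_iff.1 hh
    simp at h3
  · intro hh
    obtain ⟨rfl, h3⟩ := Prod.ext_iff.1 hh
    simp at h3

end Vale.Agent.P039
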