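import Vale.Agent.P039.Core

namespace Vale.Agent.P039
open Finset

universe u v

section
variable {E V : Type*} [Fintype E] [DecidableEq E] [DecidableEq V]
variable {nd nl : E → E} {tl : E → V}

/-- A three-edge cut with a cyclic order on its edges. -/
structure Cut (nd nl : E → E) (tl : E → V) (A B : Finset E) (τ : E → E) : Prop where
  hA : Inv nd A
  hB : Inv nl B
  sub : B ⊆ A
  card : (A \ B).card = 3
  mem : ∀ e ∈ A, e ∉ B → τ e ∈ A ∧ τ e ∉ B
  c3 : ∀ e ∈ A, e ∉ B → τ (τ (τ e)) = e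
  n1 : ∀ e ∈ A, e ∉ B → τ e ≠ e
  htl : ∀ e ∈ A, e ∉ B → tl (τ e) = tl (nd e)
  trans : ∀ e ∈ A, e ∉ B → ∀ x ∈ A, x ∉ B → x = e ∨ x = τ e ∨ x = τ (τ e)
  c3v : 3 ≤ ((A \ B).image tl).card

variable {A B : Finset E} {τ : E → E}

theorem Cut.swap (h : Pre nd nl tl) (hc : Cut nd nl tl A B τ) : Cut nl nd tl Bᶜ Aᶜ τ := by
  have e1 : Bᶜ \ Aᶜ = A \ B := by ext; simp [and_comm]
  refine ⟨hc.hB.compl, hc.hA.compl, compl_subset_compl.2 hc.sub, e1 ▸ hc.card, ?_, ?_, ?_, ?_, ?_,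
    e1 ▸ hc.c3v⟩ <;> simp only [mem_compl, not_not]
  · exact fun e h1 h2 => (hc.mem e h2 h1).symm
  · exact fun e h1 h2 => hc.c3 e h2 h1
  · exact fun e h1 h2 => hc.n1 e h2 h1
  · exact fun e h1 h2 => (hc.htl e h2 h1).trans (h.hd e).symm
  · exact fun e h1 h2 x h3 h4 => hc.trans e h2 h1 x h4 h3

theorem Sph.exists_cut (h : Sph nd nl tl) (hA : Inv nd A) (hB : Inv nl B) (hs : B ⊆ A)
    (hc : (A \ B).card = 3) : ∃ τ, Cut nd nl tl A B τ := by
  have hy : ∀ ψ : V → ℝ, ∑ e ∈ A \ B, (ψ (tl (nd e)) - ψ (tl e)) = 0 := by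
    intro ψ
    rw [← h.cyc_sub (fun e => if e ∈ A then 1 else 0) (fun e => if e ∈ B then 1 else 0)
      (fun e => by simp only [hA e]) (fun e => by simp only [hB e]) ψ, sum_sdiff_eq_sub hs]
    simp only [sub_mul, sum_sub_distrib, ite_mul, one_mul, zero_mul, sum_ite_mem, univ_inter]
  have key : ∀ x y z, x ≠ y → x ≠ z → y ≠ z → A \ B = {x, y, z} → tl (nd x) = tl y →
      ∃ τ, Cut nd nl tl A B τ := by
    intro x y z hxy hxz hyz hC h1
    have hy' : ∀ ψ : V → ℝ, ψ (tl (nd y)) + ψ (tl (nd z)) = ψ (tl x) + ψ (tl z) := by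
      intro ψ
      have := hy ψ
      rw [hC, sum_insert (by simp [hxy, hxz]), sum_pair hyz, h1] at this
      linarith
    have l1 := h.loopless x
    have l2 := h.loopless y
    have l3 := h.loopless z
    have h2 : tl (nd y) = tl z := by
      by_contra hn
      have := hy' fun v => if v = tl z then 1 else 0
      simp only [hn, l3, if_false, if_true] at this
      split_ifs at this <;> norm_num at this
    have h3 : tl (nd z) = tl x := by
      by_contra hn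
      have := hy' fun v => if v = tl x then 1 else 0
      simp only [hn, h2, if_false, if_true] at this
      linarith
    have hm : ∀ e, (e ∈ A ∧ e ∉ B) ↔ (e = x ∨ e = y ∨ e = z) := fun e => by
      rw [← mem_sdiff, hC]; simp
    refine ⟨fun e => if e = x then y else if e = y then z else x, hA, hB, hs, hc, ?_, ?_, ?_, ?_,
      ?_, ?_⟩
    · intro e h4 h5
      rw [hm]
      rcases (hm e).1 ⟨h4, h5⟩ with rfl | rfl | rfl <;> simp [hxy.symm, hxz.symm, hyz.symm]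
    · intro e h4 h5
      rcases (hm e).1 ⟨h4, h5⟩ with rfl | rfl | rfl <;> simp [hxy.symm, hxz.symm, hyz.symm]
    · intro e h4 h5
      rcases (hm e).1 ⟨h4, h5⟩ with rfl | rfl | rfl <;>
        simp [hxy.symm, hxz.symm, hyz.symm, hxz]
    · intro e h4 h5
      rcases (hm e).1 ⟨h4, h5⟩ with rfl | rfl | rfl <;>
        simp [hxy.symm, hxz.symm, hyz.symm, h1, h2, h3]
    · intro e h4 h5 w h6 h7
      have := (hm w).1 ⟨h6, h7⟩
      rcases (hm e).1 ⟨h4, h5⟩ with rfl | rfl | rfl <;>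
        simp only [hxy.symm, hxz.symm, hyz.symm, if_true, if_false] <;> tauto
    · rw [hC, image_insert, image_insert, image_singleton]
      refine (card_eq_three.2 ⟨_, _, _, ?_, ?_, ?_, rfl⟩).ge
      · exact fun hh => l1 (h1.trans hh.symm)
      · exact fun hh => l3 (h3.trans hh)
      · exact fun hh => l2 (h2.trans hh.symm)
  obtain ⟨x, y, z, hxy, hxz, hyz, hC⟩ := card_eq_three.1 hc
  by_cases h1 : tl (nd x) = tl y
  · exact key x y z hxy hxz hyz hC h1
  · refine key x z y hxz hxy hyz.symm (by rw [hC, pair_comm]) ?_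
    by_contra h2
    have := hy fun v => if v = tl (nd x) then 1 else 0
    rw [hC, sum_insert (by simp [hxy, hxz]), sum_pair hyz] at this
    simp only [(h.loopless x).symm, Ne.symm h1, Ne.symm h2, if_true, if_false] at this
    split_ifs at this <;> norm_num at this

/-- Dark rotation of the piece. -/
def Cut.pd (hc : Cut nd nl tl A B τ) (e : {e // e ∉ B}) : {e // e ∉ B} :=
  ⟨if e.1 ∈ A then τ e else nd e, by
    split_ifs with h
    · exact (hc.mem _ h e.2).2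
    · exact fun hh => h ((hc.hA _).1 (hc.sub hh))⟩

/-- Light rotation of the piece. -/
def Cut.pl (hc : Cut nd nl tl A B τ) (e : {e // e ∉ B}) : {e // e ∉ B} :=
  ⟨nl e, fun hh => e.2 ((hc.hB _).1 hh)⟩

omit [Fintype E] in
theorem Cut.pd_in (hc : Cut nd nl tl A B τ) (e : {e // e ∉ B}) (h : e.1 ∈ A) :
    (hc.pd e).1 = τ e ∧ (hc.pd e).1 ∈ A := by
  simp only [Cut.pd, h, if_true, true_and]; exact (hc.mem _ h e.2).1

omit [Fintype E] in
theorem Cut.pd_out (hc : Cut nd nl tl A B τ) (e : {e // e ∉ B}) (h : e.1 ∉ A) :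
    (hc.pd e).1 = nd e ∧ (hc.pd e).1 ∉ A := by
  simp only [Cut.pd, h, if_false, true_and]; exact fun hh => h ((hc.hA _).1 hh)

omit [Fintype E] in
theorem Cut.inv_cut (hc : Cut nd nl tl A B τ) {P : Finset {e // e ∉ B}} (hP : Inv hc.pd P)
    (e x : {e // e ∉ B}) (he : e.1 ∈ A) (hx : x.1 ∈ A) : x ∈ P ↔ e ∈ P := by
  have a1 := hc.pd_in e he
  have a2 := hc.pd_in _ a1.2
  rcases hc.trans e he e.2 x hx x.2 with h | h | h
  · rw [Subtype.ext h]
  · rw [show x = hc.pd e from Subtype.ext (h.trans a1.1.symm), hP]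
  · rw [show x = hc.pd (hc.pd e) from Subtype.ext (by rw [h, a2.1, a1.1]), hP, hP]

omit [Fintype E] in
theorem Cut.exists_mem (hc : Cut nd nl tl A B τ) : ∃ e : {e // e ∉ B}, e.1 ∈ A := by
  obtain ⟨e, he⟩ := card_pos.1 (show 0 < (A \ B).card by rw [hc.card]; norm_num)
  exact ⟨⟨e, (mem_sdiff.1 he).2⟩, (mem_sdiff.1 he).1⟩

theorem Cut.pre (h : Pre nd nl tl) (hc : Cut nd nl tl A B τ) :
    Pre hc.pd hc.pl (fun e => tl e.1) := by
  refine ⟨⟨fun e => Subtype.ext ?_, fun e he => ?_⟩, ⟨fun e => Subtype.ext (h.l.c3 _),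
    fun e he => h.l.n1 _ (congrArg Subtype.val he)⟩, fun e => ?_, fun A' B' hA' hB' hcard => ?_⟩
  · by_cases he : e.1 ∈ A
    · have a1 := hc.pd_in e he
      have a2 := hc.pd_in _ a1.2
      rw [(hc.pd_in _ a2.2).1, a2.1, a1.1, hc.c3 _ he e.2]
    · have a1 := hc.pd_out e he
      have a2 := hc.pd_out _ a1.2
      rw [(hc.pd_out _ a2.2).1, a2.1, a1.1, h.d.c3]
  · have := congrArg Subtype.val he
    by_cases he : e.1 ∈ A
    · rw [(hc.pd_in e he).1] at this; exact hc.n1 _ he e.2 this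
    · rw [(hc.pd_out e he).1] at this; exact h.d.n1 _ this
  · show tl (nl e) = tl (hc.pd e).1
    by_cases he : e.1 ∈ A
    · rw [(hc.pd_in e he).1, hc.htl _ he e.2, h.hd]
    · rw [(hc.pd_out e he).1, h.hd]
  · obtain ⟨c0, hc0⟩ := hc.exists_mem
    let L : Finset {e // e ∉ B} → Finset E := fun S =>
      univ.filter fun e => if hh : e ∈ B then c0 ∈ A' else ⟨e, hh⟩ ∈ S
    have L1 : ∀ S e, e ∈ B → (e ∈ L S ↔ c0 ∈ A') := fun S e he => by simp [L, he]
    have L2 : ∀ S (e : {e // e ∉ B}), (e.1 ∈ L S ↔ e ∈ S) := fun S e => by simp [L, e.2]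
    have L3 : ∀ e ∈ A, (e ∈ L A' ↔ c0 ∈ A') := fun e he => by
      by_cases hh : e ∈ B
      · exact L1 _ e hh
      · exact (L2 A' ⟨e, hh⟩).trans (hc.inv_cut hA' c0 ⟨e, hh⟩ hc0 he)
    have L4 : ∀ S T, (L S \ L T).card ≤ (S \ T).card := by
      intro S T
      refine le_trans (card_le_card ?_) (card_image_le (f := Subtype.val))
      intro e he
      obtain ⟨h1, h2⟩ := mem_sdiff.1 he
      by_cases hh : e ∈ B
      · exact absurd ((L1 _ e hh).2 ((L1 _ e hh).1 h1)) h2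
      · exact mem_image.2 ⟨⟨e, hh⟩, mem_sdiff.2 ⟨(L2 S ⟨e, hh⟩).1 h1,
          fun h3 => h2 ((L2 T ⟨e, hh⟩).2 h3)⟩, rfl⟩
    have i1 : Inv nd (L A') := by
      intro e
      by_cases he : e ∈ A
      · rw [L3 e he, L3 _ ((hc.hA e).2 he)]
      · have hB : e ∉ B := fun hh => he (hc.sub hh)
        rw [← (hc.pd_out ⟨e, hB⟩ he).1, L2, hA', ← L2]
    have i2 : Inv nl (L B') := by
      intro e
      by_cases he : e ∈ B
      · rw [L1 _ e he, L1 _ _ ((hc.hB e).2 he)]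
      · exact (L2 B' (hc.pl ⟨e, he⟩)).trans ((hB' _).trans (L2 B' ⟨e, he⟩).symm)
    have c1 := L4 A' B'
    have c2 := L4 B' A'
    rcases h.cut _ _ i1 i2 (by omega) with ⟨h1, h2⟩ | ⟨h1, h2⟩
    · left
      constructor <;> ext e <;> rw [← L2] <;> simp [h1, h2]
    · right
      constructor <;> ext e <;> rw [← L2] <;> simp [h1, h2]

omit [DecidableEq V] in
theorem card_piece (B : Finset E) : Fintype.card {e // e ∉ B} = Bᶜ.card := by
  rw [Fintype.card_subtype]; congr 1; ext; simp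

theorem image_piece (B : Finset E) (tl : E → V) :
    (univ.image fun e : {e // e ∉ B} => tl e.1) = Bᶜ.image tl := by
  ext v; simp

theorem Cut.sph (h : Sph nd nl tl) (hc : Cut nd nl tl A B τ) :
    Sph hc.pd hc.pl (fun e => tl e.1) := by
  obtain ⟨c0, hc0⟩ := hc.exists_mem
  have h1 := ((hc.pre h.toPre).global c0).1
  have h2 := (((hc.swap h.toPre).pre h.toPre.swap).global ⟨c0, by simpa using hc0⟩).1
  refine ⟨hc.pre h.toPre, ?_⟩
  rw [card_piece, image_piece] at *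
  rw [compl_compl] at h2
  have c1 := card_union_add_card_inter (Bᶜ.image tl) (A.image tl)
  have c2 : Bᶜ.image tl ∪ A.image tl = univ.image tl := by
    rw [← image_union]; congr 1; ext e
    have := @hc.sub e
    simp only [mem_union, mem_compl, mem_univ, iff_true]; tauto
  have c3 : ((A \ B).image tl).card ≤ (Bᶜ.image tl ∩ A.image tl).card :=
    card_le_card (subset_inter (image_subset_image fun e he => mem_compl.2 (mem_sdiff.1 he).2)
      (image_subset_image sdiff_subset))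
  have c4 := hc.c3v
  have c5 := card_compl B
  have c6 := card_le_univ B
  have c7 := card_sdiff_add_card_eq_card hc.sub
  have c8 := hc.card
  have c9 := h.eul
  rw [c2] at c1
  omega

theorem Cut.half (hc : Cut nd nl tl A B τ) (M : Finset E) (M1 : Finset {e // e ∉ B})
    (hM1 : Good hc.pd hc.pl M1) (hK : ∀ e, e ∈ M1 ↔ e.1 ∈ M) (P Q : Finset E) (hP : Inv nd P)
    (hQ : Inv nl Q) (hPQ : ∀ e ∉ M, e ∈ P ↔ e ∈ Q) (c : Prop)
    (hcc : ∀ e ∈ A, e ∉ B → e ∉ M → (e ∈ Q ↔ c)) :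
    (∀ e ∉ A, e ∈ P ↔ c) ∧ ∀ e ∉ B, e ∈ Q ↔ c := by
  classical
  obtain ⟨c0, hc0⟩ := hc.exists_mem
  have := hM1.conn (univ.filter fun e => if e.1 ∈ A then c else e.1 ∈ P)
    (univ.filter fun e => e.1 ∈ Q) (fun e => by
      simp only [mem_filter, mem_univ, true_and]
      by_cases he : e.1 ∈ A
      · simp only [he, (hc.pd_in e he).2, if_true]
      · rw [if_neg he, if_neg (hc.pd_out e he).2, (hc.pd_out e he).1, hP])
    (fun e => by simp only [mem_filter, mem_univ, true_and]; exact hQ _) (fun e he => by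
      simp only [mem_filter, mem_univ, true_and]
      rw [hK] at he
      split_ifs with h1
      · exact (hcc _ h1 e.2 he).symm
      · exact hPQ _ he)
  rcases this with ⟨h1, h2⟩ | ⟨h1, h2⟩
  · rw [filter_eq_empty_iff] at h1 h2
    have h3 := h1 (mem_univ c0)
    rw [if_pos hc0] at h3
    refine ⟨fun e he => ?_, fun e he => ?_⟩
    · have := h1 (mem_univ ⟨e, fun hh => he (hc.sub hh)⟩)
      rw [if_neg he] at this; tauto
    · have := h2 (mem_univ ⟨e, he⟩); tauto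
  · rw [filter_eq_self] at h1 h2
    have h3 := h1 _ (mem_univ c0)
    rw [if_pos hc0] at h3
    refine ⟨fun e he => ?_, fun e he => ?_⟩
    · have := h1 _ (mem_univ ⟨e, fun hh => he (hc.sub hh)⟩)
      rw [if_neg he] at this; tauto
    · have := h2 _ (mem_univ ⟨e, he⟩); tauto

omit [Fintype E] in
theorem Cut.only (hc : Cut nd nl tl A B τ) {M1 : Finset {e // e ∉ B}} (hM : Mt hc.pd M1)
    {e1 : {e // e ∉ B}} (h1 : e1 ∈ M1) (h2 : e1.1 ∈ A) (x : {e // e ∉ B}) (hx : x.1 ∈ A) :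
    x ∈ M1 ↔ x.1 = e1.1 := by
  have a1 := hc.pd_in e1 h2
  have a2 := hc.pd_in _ a1.2
  have h3 := hM e1
  rw [if_pos h1] at h3
  refine ⟨fun hh => ?_, fun hh => Subtype.ext hh ▸ h1⟩
  rcases hc.trans e1 h2 e1.2 x hx x.2 with h | h | h
  · exact h
  · rw [show x = hc.pd e1 from Subtype.ext (h.trans a1.1.symm)] at hh
    rw [if_pos hh] at h3; omega
  · rw [show x = hc.pd (hc.pd e1) from Subtype.ext (by rw [h, a2.1, a1.1])] at hh
    rw [if_pos hh] at h3; omega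

theorem Cut.mt (hc : Cut nd nl tl A B τ) (M : Finset E) (M1 : Finset {e // e ∉ B})
    (hM1 : Good hc.pd hc.pl M1) (hK : ∀ e, e ∈ M1 ↔ e.1 ∈ M) (e : E) :
    (e ∉ A → (if e ∈ M then 1 else 0) + (if nd e ∈ M then 1 else 0) +
      (if nd (nd e) ∈ M then 1 else 0) = 1) ∧ (e ∉ B → (if e ∈ M then 1 else 0) +
      (if nl e ∈ M then 1 else 0) + (if nl (nl e) ∈ M then 1 else 0) = 1) := by
  constructor
  · intro he
    have := hM1.md ⟨e, fun hh => he (hc.sub hh)⟩
    have a1 := hc.pd_out ⟨e, fun hh => he (hc.sub hh)⟩ he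
    have a2 := hc.pd_out _ a1.2
    simpa only [hK, a2.1, a1.1] using this
  · intro he
    have := hM1.ml ⟨e, he⟩
    simp only [hK] at this
    exact this

theorem Cut.glue (h : Pre nd nl tl) (hc : Cut nd nl tl A B τ) (M1 : Finset {e // e ∉ B})
    (hM1 : Good hc.pd hc.pl M1) (e1 : {e // e ∉ B}) (h1 : e1 ∈ M1) (h2 : e1.1 ∈ A)
    (M2 : Finset {e // e ∉ Aᶜ}) (hM2 : Good (hc.swap h).pd (hc.swap h).pl M2)
    (h3 : (⟨e1.1, by simpa using h2⟩ : {e // e ∉ Aᶜ}) ∈ M2) :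
    ∃ M, Good nd nl M ∧ ∀ e, e ∈ M1 ↔ e.1 ∈ M := by
  let M : Finset E := univ.filter fun e =>
    if hh : e ∈ B then ⟨e, by simpa using hc.sub hh⟩ ∈ M2 else ⟨e, hh⟩ ∈ M1
  have K1 : ∀ e, e ∈ M1 ↔ e.1 ∈ M := fun e => by simp [M, e.2]
  have K0 : ∀ e ∈ A, e ∉ B → (e ∈ M ↔ e = e1.1) := fun e he he' =>
    (K1 ⟨e, he'⟩).symm.trans (hc.only hM1.md h1 h2 ⟨e, he'⟩ he)
  have K2 : ∀ e, e ∈ M2 ↔ e.1 ∈ M := fun e => by
    by_cases hh : e.1 ∈ B
    · simp [M, hh]
    · rw [K0 _ (by simpa using e.2) hh]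
      exact (hc.swap h).only hM2.md h3 (mem_compl.2 e1.2) e (mem_compl.2 hh)
  have m1 : Mt nd M := fun e => by
    by_cases he : e ∈ A
    · exact ((hc.swap h).mt M M2 hM2 K2 e).2 (by simpa using he)
    · exact (hc.mt M M1 hM1 K1 e).1 he
  have m2 : Mt nl M := fun e => by
    by_cases he : e ∈ B
    · exact ((hc.swap h).mt M M2 hM2 K2 e).1 (by simpa using he)
    · exact (hc.mt M M1 hM1 K1 e).2 he
  refine ⟨M, ⟨m1, m2, fun P Q hP hQ hPQ => ?_⟩, K1⟩
  obtain ⟨a2, b2⟩ := hc.mem _ h2 e1.2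
  obtain ⟨a3, b3⟩ := hc.mem _ a2 b2
  have n2 : τ e1 ∉ M := fun hh => hc.n1 _ h2 e1.2 ((K0 _ a2 b2).1 hh)
  have n3 : τ (τ e1) ∉ M := fun hh => by
    have h4 := (K0 _ a3 b3).1 hh
    have h5 := hc.c3 _ h2 e1.2
    rw [h4] at h5
    exact hc.n1 _ h2 e1.2 h5
  have hpar : τ e1 ∈ P ↔ τ (τ e1) ∈ P := by
    have c1 := m1.card h.d (A := P ∩ A) (fun e => by simp only [mem_inter, hP e, hc.hA e])
    have c2 := m2.card h.l (A := Q ∩ B) (fun e => by simp only [mem_inter, hQ e, hc.hB e])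
    have c3 := card_sdiff_add_card_inter (P ∩ A) M
    have c4 := card_sdiff_add_card_inter (Q ∩ B) M
    have key : ∀ x y, x ∈ A → x ∉ B → x ∉ M → (∀ e ∈ A, e ∉ B → e ∉ M → e = x ∨ e = y) →
        x ∈ P → y ∈ P := by
      intro x y x1 x2 x3 hxy x4
      by_contra hy
      have : (P ∩ A) \ M = insert x ((Q ∩ B) \ M) := by
        ext e
        simp only [mem_sdiff, mem_inter, mem_insert]
        constructor
        · rintro ⟨⟨p1, p2⟩, p3⟩
          by_cases p4 : e ∈ B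
          · exact Or.inr ⟨⟨(hPQ e p3).1 p1, p4⟩, p3⟩
          · rcases hxy e p2 p4 p3 with rfl | rfl
            · exact Or.inl rfl
            · exact absurd p1 hy
        · rintro (rfl | ⟨⟨p1, p2⟩, p3⟩)
          · exact ⟨⟨x4, x1⟩, x3⟩
          · exact ⟨⟨(hPQ e p3).2 p1, hc.sub p2⟩, p3⟩
      rw [this, card_insert_of_notMem (by simp [x2])] at c3
      omega
    have hxy : ∀ e ∈ A, e ∉ B → e ∉ M → e = τ e1 ∨ e = τ (τ e1) := fun e p1 p2 p3 =>
      (hc.trans _ h2 e1.2 e p1 p2).resolve_left fun hh => p3 ((K0 e p1 p2).2 hh)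
    exact ⟨key _ _ a2 b2 n2 hxy, key _ _ a3 b3 n3 fun e p1 p2 p3 => (hxy e p1 p2 p3).symm⟩
  have hcc : ∀ e ∈ A, e ∉ B → e ∉ M → (e ∈ P ↔ τ e1 ∈ P) := fun e p1 p2 p3 => by
    rcases hc.trans _ h2 e1.2 e p1 p2 with hh | rfl | rfl
    · exact absurd ((K0 e p1 p2).2 hh) p3
    · rfl
    · exact hpar.symm
  obtain ⟨r1, r2⟩ := hc.half M M1 hM1 K1 P Q hP hQ hPQ (τ e1 ∈ P)
    fun e p1 p2 p3 => (hPQ e p3).symm.trans (hcc e p1 p2 p3)
  obtain ⟨r3, r4⟩ := (hc.swap h).half M M2 hM2 K2 Q P hQ hP (fun e he => (hPQ e he).symm)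
    (τ e1 ∈ P) fun e p1 p2 p3 => hcc e (by simpa using p2) (by simpa using p1) p3
  have s1 : ∀ e, e ∈ P ↔ τ e1 ∈ P := fun e => by
    by_cases he : e ∈ A
    · exact r4 e (by simpa using he)
    · exact r1 e he
  have s2 : ∀ e, e ∈ Q ↔ τ e1 ∈ P := fun e => by
    by_cases he : e ∈ B
    · exact r3 e (by simpa using he)
    · exact r2 e he
  by_cases hh : τ e1 ∈ P
  · right; constructor <;> ext e <;> simp [s1 e, s2 e, hh]
  · left; constructor <;> ext e <;> simp [s1 e, s2 e, hh]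
end

theorem main_abs (n : ℕ) : ∀ (E : Type u) (V : Type v) [Fintype E] [DecidableEq E] [DecidableEq V]
    (nd nl : E → E) (tl : E → V), Fintype.card E ≤ n → Sph nd nl tl →
    ∀ e0, ∃ M, e0 ∈ M ∧ Good nd nl M := by
  induction n with
  | zero =>
    intro E V _ _ _ nd nl tl hn _ e0
    have := Fintype.card_pos_iff.2 ⟨e0⟩
    omega
  | succ n ih =>
    intro E V _ _ _ nd nl tl hn h e0
    by_cases hb : NoBad nd nl e0
    · exact h.core hb
    simp only [NoBad, not_forall] at hb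
    obtain ⟨A, B, hA, hB, h0, hs, hc, hne⟩ := hb
    obtain ⟨τ, hτ⟩ := h.exists_cut hA hB hs hc
    have c1 := card_compl B
    have c2 := card_le_univ B
    have c3 := card_pos.2 (nonempty_iff_ne_empty.2 hne)
    have c4 : A.card < Fintype.card E := card_lt_card
      (Finset.ssubset_iff_subset_ne.2 ⟨subset_univ _, fun hh => h0 (hh ▸ mem_univ _)⟩)
    obtain ⟨M1, m1, g1⟩ := ih _ V hτ.pd hτ.pl _ (by rw [card_piece]; omega) (hτ.sph h)
      ⟨e0, fun hh => h0 (hs hh)⟩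
    obtain ⟨c0, hc0⟩ := hτ.exists_mem
    obtain ⟨e1, h1, h2⟩ : ∃ e1, e1 ∈ M1 ∧ e1.1 ∈ A := by
      have a1 := hτ.pd_in c0 hc0
      have a2 := hτ.pd_in _ a1.2
      have := g1.md c0
      by_contra hn
      push Not at hn
      rw [if_neg fun hh => hn _ hh hc0, if_neg fun hh => hn _ hh a1.2,
        if_neg fun hh => hn _ hh a2.2] at this
      omega
    obtain ⟨M2, m2, g2⟩ := ih _ V (hτ.swap h.toPre).pd (hτ.swap h.toPre).pl _
      (by rw [card_piece, compl_compl]; omega) ((hτ.swap h.toPre).sph h.swap)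
      ⟨e1.1, by simpa using h2⟩
    obtain ⟨M, g, hK⟩ := hτ.glue h.toPre M1 g1 e1 h1 h2 M2 g2 m2
    exact ⟨M, (hK _).1 m1, g⟩

end Vale.Agent.P039
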